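import Vale.Agent.H9.FK.Cube

namespace Vale.Agent.H9.FK

open Finset

section bonami

variable {E : Type*} [Fintype E] [DecidableEq E]

/-- one-coordinate inequality -/
theorem one_coord {p : ℝ} (h0 : 0 < p) (h1 : p < 1) (a c : ℝ) :
    p * (a + rh p * ph p true * c) ^ 4 + (1 - p) * (a + rh p * ph p false * c) ^ 4
      ≤ a ^ 4 + 2 * (a ^ 2 * c ^ 2) + c ^ 4 := by
  have hs := sg_pos h0 h1
  have hs2 := sg_sq h0 h1
  have hsh := sg_le_half p
  have hr := rh_sq h0 h1
  have hu : ph p true = (1 - p) / sg p := by simp [ph]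
  have hw : ph p false = (-p) / sg p := by simp [ph]
  set s := sg p with hsdef
  set ρ := rh p with hρdef
  set u := ph p true with hudef
  set w := ph p false with hwdef
  have m1 : p * u + (1 - p) * w = 0 := by
    rw [hu, hw]; field_simp; ring
  have m2 : p * u ^ 2 + (1 - p) * w ^ 2 = 1 := by
    rw [hu, hw]
    have : p * ((1 - p) / s) ^ 2 + (1 - p) * (-p / s) ^ 2 = (p * (1 - p)) / s ^ 2 := by
      field_simp; ring
    rw [this, hs2]
    have : p * (1 - p) ≠ 0 := by
      rw [← hs2]; positivity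
    exact div_self this
  set k := p * u ^ 3 + (1 - p) * w ^ 3 with hk
  set q := p * u ^ 4 + (1 - p) * w ^ 4 with hq
  have m3 : k * s = 1 - 2 * p := by
    rw [hk, hu, hw]
    have : (p * ((1 - p) / s) ^ 3 + (1 - p) * (-p / s) ^ 3) * s
        = (p * (1 - p)) * (1 - 2 * p) / s ^ 2 := by
      field_simp; ring
    rw [this, ← hs2]
    field_simp
  have m4 : q * s ^ 2 = 1 - 3 * (p * (1 - p)) := by
    rw [hq, hu, hw]
    have : (p * ((1 - p) / s) ^ 4 + (1 - p) * (-p / s) ^ 4) * s ^ 2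
        = (p * (1 - p)) * (1 - 3 * (p * (1 - p))) / s ^ 2 := by
      field_simp; ring
    rw [this, ← hs2]
    field_simp
  have hexp : p * (a + ρ * u * c) ^ 4 + (1 - p) * (a + ρ * w * c) ^ 4
      = a ^ 4 + 6 * ρ ^ 2 * (a ^ 2 * c ^ 2) + 4 * k * ρ ^ 3 * (a * c ^ 3) + q * ρ ^ 4 * c ^ 4 := by
    have : p * (a + ρ * u * c) ^ 4 + (1 - p) * (a + ρ * w * c) ^ 4
      = a ^ 4 + 4 * a ^ 3 * c * ρ * (p * u + (1 - p) * w)
        + 6 * ρ ^ 2 * (a ^ 2 * c ^ 2) * (p * u ^ 2 + (1 - p) * w ^ 2)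
        + 4 * k * ρ ^ 3 * (a * c ^ 3) + q * ρ ^ 4 * c ^ 4 := by
      rw [hk, hq]; ring
    rw [this, m1, m2]; ring
  rw [hexp]
  have e1 : 4 * k * ρ ^ 3 * (a * c ^ 3) ≤ 4 * ρ ^ 2 * (a ^ 2 * c ^ 2) + k ^ 2 * ρ ^ 4 * c ^ 4 := by
    nlinarith [sq_nonneg (2 * ρ * a * c - k * ρ ^ 2 * c ^ 2)]
  have e2 : (k ^ 2 + q) * ρ ^ 4 ≤ 1 := by
    have h4 : ρ ^ 4 = (2 * s / 5) ^ 2 := by rw [← hr]; ring
    have : (k ^ 2 + q) * ρ ^ 4 = ((k * s) ^ 2 + q * s ^ 2) * (4 / 25) := by
      rw [h4]; ring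
    rw [this, m3, m4]
    nlinarith [mul_pos h0 (sub_pos.2 h1)]
  have e3 : 10 * ρ ^ 2 ≤ 2 := by
    rw [hr]; linarith
  have h5 : 0 ≤ a ^ 2 * c ^ 2 := by positivity
  have h6 : 0 ≤ c ^ 4 := by positivity
  nlinarith [mul_le_mul_of_nonneg_right e3 h5, mul_le_mul_of_nonneg_right e2 h6]

theorem bonami {p : ℝ} (h0 : 0 < p) (h1 : p < 1) (U : Finset E) (c : Finset E → ℝ) :
    Ex p (fun x => (∑ S ∈ U.powerset, rh p ^ S.card * c S * chi p S x) ^ 4)
      ≤ (∑ S ∈ U.powerset, c S ^ 2) ^ 2 := by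
  induction U using Finset.induction_on generalizing c with
  | empty =>
    simp only [Finset.powerset_empty, Finset.sum_singleton, Finset.card_empty, pow_zero, one_mul]
    have : (fun x : E → Bool => (c ∅ * chi p ∅ x) ^ 4) = fun _ => (c ∅) ^ 4 := by
      funext x; simp [chi]
    rw [this, Ex_const]
    apply le_of_eq; ring
  | insert e V he ih =>
    have hV : ∀ S ∈ V.powerset, e ∉ S := fun S hS h => he (Finset.mem_powerset.1 hS h)
    set A : (E → Bool) → ℝ := fun x => ∑ S ∈ V.powerset, rh p ^ S.card * c S * chi p S x with hA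
    set C : (E → Bool) → ℝ :=
      fun x => ∑ S ∈ V.powerset, rh p ^ S.card * c (insert e S) * chi p S x with hC
    have hG : ∀ x, ∑ S ∈ (insert e V).powerset, rh p ^ S.card * c S * chi p S x
        = A x + rh p * ph p (x e) * C x := by
      intro x
      rw [Finset.sum_powerset_insert he, hA, hC]
      simp only
      congr 1
      rw [Finset.mul_sum]
      refine Finset.sum_congr rfl fun S hS => ?_
      rw [chi_insert p (hV S hS), Finset.card_insert_of_notMem (hV S hS)]
      ring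
    have hAu : ∀ x b, A (Function.update x e b) = A x := by
      intro x b
      simp only [hA]
      refine Finset.sum_congr rfl fun S hS => ?_
      rw [chi_update p (hV S hS)]
    have hCu : ∀ x b, C (Function.update x e b) = C x := by
      intro x b
      simp only [hC]
      refine Finset.sum_congr rfl fun S hS => ?_
      rw [chi_update p (hV S hS)]
    simp only [hG]
    rw [Ex_avg p e]
    simp only [hAu, hCu, Function.update_self]
    set al := ∑ S ∈ V.powerset, c S ^ 2 with hal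
    set ga := ∑ S ∈ V.powerset, c (insert e S) ^ 2 with hga
    have hA4 : Ex p (fun x => A x ^ 4) ≤ al ^ 2 := ih c
    have hC4 : Ex p (fun x => C x ^ 4) ≤ ga ^ 2 := ih (fun S => c (insert e S))
    have hal0 : 0 ≤ al := Finset.sum_nonneg fun _ _ => sq_nonneg _
    have hga0 : 0 ≤ ga := Finset.sum_nonneg fun _ _ => sq_nonneg _
    have hA40 : 0 ≤ Ex p (fun x => A x ^ 4) := Ex_nonneg h0.le h1.le fun x => by positivity
    have hC40 : 0 ≤ Ex p (fun x => C x ^ 4) := Ex_nonneg h0.le h1.le fun x => by positivity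
    have hcs : (Ex p (fun x => A x ^ 2 * C x ^ 2)) ^ 2
        ≤ Ex p (fun x => A x ^ 4) * Ex p (fun x => C x ^ 4) := by
      have := Ex_mul_sq_le h0.le h1.le (fun x : E → Bool => A x ^ 2) (fun x => C x ^ 2)
      simpa only [← pow_mul] using this
    have hAC : Ex p (fun x => A x ^ 2 * C x ^ 2) ≤ al * ga := by
      apply le_of_sq_le_sq _ (mul_nonneg hal0 hga0) |> fun h => h
      calc (Ex p (fun x => A x ^ 2 * C x ^ 2)) ^ 2
          ≤ Ex p (fun x => A x ^ 4) * Ex p (fun x => C x ^ 4) := hcs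
        _ ≤ al ^ 2 * ga ^ 2 := mul_le_mul hA4 hC4 hC40 (sq_nonneg _)
        _ = (al * ga) ^ 2 := by ring
    calc Ex p (fun x => p * (A x + rh p * ph p true * C x) ^ 4
            + (1 - p) * (A x + rh p * ph p false * C x) ^ 4)
        ≤ Ex p (fun x => A x ^ 4 + 2 * (A x ^ 2 * C x ^ 2) + C x ^ 4) :=
          Ex_mono h0.le h1.le fun x => one_coord h0 h1 (A x) (C x)
      _ = Ex p (fun x => A x ^ 4) + 2 * Ex p (fun x => A x ^ 2 * C x ^ 2)
            + Ex p (fun x => C x ^ 4) := by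
          rw [Ex_add, Ex_add, Ex_mul_left]
      _ ≤ (al + ga) ^ 2 := by nlinarith
      _ = (∑ S ∈ (insert e V).powerset, c S ^ 2) ^ 2 := by
          rw [Finset.sum_powerset_insert he]

theorem level {p : ℝ} (h0 : 0 < p) (h1 : p < 1) (g : (E → Bool) → ℝ)
    (hg : ∀ x, g x = 0 ∨ g x = 1) (m : ℕ) :
    rh p ^ (2 * m) * ∑ S with S.card ≤ m, co p g S ^ 2 ≤ Ex p g * Real.sqrt (Ex p g) := by
  have hg0 : ∀ x, 0 ≤ g x := fun x => by rcases hg x with h | h <;> rw [h] <;> norm_num
  have hgg : ∀ x, g x ^ 2 = g x := fun x => by rcases hg x with h | h <;> rw [h] <;> norm_num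
  have ht0 : 0 ≤ Ex p g := Ex_nonneg h0.le h1.le hg0
  set t := Ex p g with ht
  set P : (E → Bool) → ℝ :=
    fun x => ∑ S : Finset E, rh p ^ S.card * (rh p ^ S.card * co p g S) * chi p S x with hP
  set W := ∑ S : Finset E, (rh p ^ S.card * co p g S) ^ 2 with hW
  have hW0 : 0 ≤ W := Finset.sum_nonneg fun _ _ => sq_nonneg _
  have hgP : Ex p (fun x => g x * P x) = W := by
    have : (fun x => g x * P x) = fun x => ∑ S : Finset E,
        (rh p ^ S.card * (rh p ^ S.card * co p g S)) * (g x * chi p S x) := by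
      funext x
      simp only [hP, Finset.mul_sum]
      refine Finset.sum_congr rfl fun S _ => ?_
      ring
    rw [this, Ex_sum]
    simp only [Ex_mul_left]
    rw [hW]
    refine Finset.sum_congr rfl fun S _ => ?_
    show rh p ^ S.card * (rh p ^ S.card * co p g S) * co p g S = _
    ring
  have hP4 : Ex p (fun x => P x ^ 4) ≤ W ^ 2 := by
    have := bonami h0 h1 (Finset.univ : Finset E) (fun S => rh p ^ S.card * co p g S)
    simpa only [Finset.powerset_univ] using this
  have hP40 : 0 ≤ Ex p (fun x => P x ^ 4) := Ex_nonneg h0.le h1.le fun x => by positivity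
  -- first Cauchy-Schwarz
  have c1 : W ^ 2 ≤ t * Ex p (fun x => g x * P x ^ 2) := by
    have := Ex_mul_sq_le h0.le h1.le g (fun x => g x * P x)
    have e1 : (fun x => g x * (g x * P x)) = fun x => g x * P x := by
      funext x
      rw [← mul_assoc, ← sq, hgg]
    have e2 : (fun x => g x ^ 2) = g := by funext x; exact hgg x
    have e3 : (fun x => (g x * P x) ^ 2) = fun x => g x * P x ^ 2 := by
      funext x
      rw [mul_pow, hgg]
    rw [e1, e2, e3, hgP] at this
    exact this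
  have c2 : (Ex p (fun x => g x * P x ^ 2)) ^ 2 ≤ t * W ^ 2 := by
    have := Ex_mul_sq_le h0.le h1.le g (fun x => P x ^ 2)
    have e2 : (fun x => g x ^ 2) = g := by funext x; exact hgg x
    have e3 : (fun x => (P x ^ 2) ^ 2) = fun x => P x ^ 4 := by
      funext x
      ring
    rw [e2, e3] at this
    exact this.trans (mul_le_mul_of_nonneg_left hP4 ht0)
  have hgP2 : 0 ≤ Ex p (fun x => g x * P x ^ 2) :=
    Ex_nonneg h0.le h1.le fun x => mul_nonneg (hg0 x) (sq_nonneg _)
  have hWt : W ^ 2 ≤ t ^ 3 := by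
    rcases hW0.eq_or_lt with h | h
    · rw [← h]
      simpa using pow_nonneg ht0 3
    · have h4 : W ^ 2 * W ^ 2 ≤ t ^ 3 * W ^ 2 := by
        calc W ^ 2 * W ^ 2 ≤ (t * Ex p (fun x => g x * P x ^ 2)) *
              (t * Ex p (fun x => g x * P x ^ 2)) :=
              mul_le_mul c1 c1 (sq_nonneg _) (mul_nonneg ht0 hgP2)
          _ = t ^ 2 * (Ex p (fun x => g x * P x ^ 2)) ^ 2 := by ring
          _ ≤ t ^ 2 * (t * W ^ 2) := mul_le_mul_of_nonneg_left c2 (sq_nonneg _)
          _ = t ^ 3 * W ^ 2 := by ring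
      exact le_of_mul_le_mul_right h4 (by positivity)
  have hWle : W ≤ t * Real.sqrt t := by
    have h1' : 0 ≤ t * Real.sqrt t := mul_nonneg ht0 (Real.sqrt_nonneg _)
    refine abs_le_of_sq_le_sq' ?_ h1' |>.2
    rw [mul_pow, Real.sq_sqrt ht0]
    calc W ^ 2 ≤ t ^ 3 := hWt
      _ = t ^ 2 * t := by ring
  refine le_trans ?_ hWle
  have hr0 := rh_pos h0 h1
  have hr1 := rh_le_one p
  rw [Finset.mul_sum]
  calc ∑ S with S.card ≤ m, rh p ^ (2 * m) * co p g S ^ 2
      ≤ ∑ S : Finset E with S.card ≤ m, (rh p ^ S.card * co p g S) ^ 2 := by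
        refine Finset.sum_le_sum fun S hS => ?_
        rw [mul_pow, ← pow_mul, mul_comm S.card 2]
        refine mul_le_mul_of_nonneg_right ?_ (sq_nonneg _)
        refine pow_le_pow_of_le_one hr0.le hr1 ?_
        have := (Finset.mem_filter.1 hS).2
        omega
    _ ≤ W := by
        rw [hW]
        refine Finset.sum_le_sum_of_subset_of_nonneg (Finset.filter_subset _ _) ?_
        intro S _ _
        exact sq_nonneg _

end bonami

end Vale.Agent.H9.FK
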