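import Mathlib

/-!
Fourier analysis on the `p`-biased cube `E → Bool`.
-/

namespace Vale.Agent.H9.FK

open Finset

section cube

variable {E : Type*} [Fintype E] [DecidableEq E]

/-- one-coordinate weight -/
def wt (p : ℝ) (b : Bool) : ℝ := if b = true then p else 1 - p

/-- product weight -/
def Pw (p : ℝ) (x : E → Bool) : ℝ := ∏ e, wt p (x e)

/-- expectation -/
def Ex (p : ℝ) (f : (E → Bool) → ℝ) : ℝ := ∑ x, Pw p x * f x

/-- standard deviation of one coordinate -/
noncomputable def sg (p : ℝ) : ℝ := Real.sqrt (p * (1 - p))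

/-- normalised coordinate -/
noncomputable def ph (p : ℝ) (b : Bool) : ℝ := ((if b = true then 1 else 0) - p) / sg p

/-- biased characters -/
noncomputable def chi (p : ℝ) (S : Finset E) (x : E → Bool) : ℝ := ∏ e ∈ S, ph p (x e)

/-- Fourier coefficients -/
noncomputable def co (p : ℝ) (f : (E → Bool) → ℝ) (S : Finset E) : ℝ :=
  Ex p (fun x => f x * chi p S x)

/-- discrete derivative -/
def De (e : E) (f : (E → Bool) → ℝ) (x : E → Bool) : ℝ :=
  f (Function.update x e true) - f (Function.update x e false)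

/-- hypercontractivity parameter: `ρ ^ 2 = 2 σ / 5` -/
noncomputable def rh (p : ℝ) : ℝ := Real.sqrt (2 * sg p / 5)

/-! ### Basics -/

theorem sg_pos {p : ℝ} (h0 : 0 < p) (h1 : p < 1) : 0 < sg p :=
  Real.sqrt_pos.mpr (mul_pos h0 (by linarith))

theorem sg_sq {p : ℝ} (h0 : 0 < p) (h1 : p < 1) : sg p ^ 2 = p * (1 - p) :=
  Real.sq_sqrt (mul_pos h0 (by linarith)).le

theorem sg_le_half (p : ℝ) : sg p ≤ 1 / 2 := by
  unfold sg
  rw [Real.sqrt_le_left (by norm_num)]
  nlinarith [sq_nonneg (p - 1 / 2)]

theorem rh_sq {p : ℝ} (h0 : 0 < p) (h1 : p < 1) : rh p ^ 2 = 2 * sg p / 5 :=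
  Real.sq_sqrt (by have := sg_pos h0 h1; positivity)

theorem rh_pos {p : ℝ} (h0 : 0 < p) (h1 : p < 1) : 0 < rh p :=
  Real.sqrt_pos.mpr (by have := sg_pos h0 h1; positivity)

theorem rh_le_one (p : ℝ) : rh p ≤ 1 := by
  unfold rh
  rw [Real.sqrt_le_left (by norm_num)]
  have := sg_le_half p
  linarith

theorem sum_flip (e : E) (F : (E → Bool) → ℝ) :
    ∑ x, F (Function.update x e (!(x e))) = ∑ x, F x := by
  have hinv : Function.Involutive (fun x : E → Bool => Function.update x e (!(x e))) := by
    intro x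
    funext i
    by_cases hi : i = e
    · subst hi
      simp
    · simp [Function.update_of_ne hi]
  exact Equiv.sum_comp (hinv.toPerm) F

theorem sum_avg (e : E) (F : (E → Bool) → ℝ) :
    ∑ x, F x =
      (1 / 2) * ∑ x, (F (Function.update x e true) + F (Function.update x e false)) := by
  have h : ∀ x : E → Bool, F (Function.update x e true) + F (Function.update x e false)
      = F x + F (Function.update x e (!(x e))) := by
    intro x
    cases hx : x e
    · have h1 : Function.update x e false = x := by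
        rw [← hx]; exact Function.update_eq_self e x
      rw [h1]
      simp
      ring
    · have h1 : Function.update x e true = x := by
        rw [← hx]; exact Function.update_eq_self e x
      rw [h1]
      simp
  simp_rw [h]
  rw [sum_add_distrib, sum_flip]
  ring

theorem Pw_update (p : ℝ) (e : E) (x : E → Bool) (b : Bool) :
    Pw p (Function.update x e b) = wt p b * ∏ i ∈ univ.erase e, wt p (x i) := by
  unfold Pw
  rw [← mul_prod_erase univ _ (mem_univ e)]
  congr 1
  · simp
  · apply prod_congr rfl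
    intro i hi
    rw [Function.update_of_ne (ne_of_mem_erase hi)]

theorem Ex_avg (p : ℝ) (e : E) (h : (E → Bool) → ℝ) :
    Ex p h = Ex p (fun x => p * h (Function.update x e true)
      + (1 - p) * h (Function.update x e false)) := by
  unfold Ex
  rw [sum_avg e (fun x => Pw p x * h x),
    sum_avg e (fun x => Pw p x * (p * h (Function.update x e true)
      + (1 - p) * h (Function.update x e false)))]
  congr 1
  apply sum_congr rfl
  intro x _
  simp only [Pw_update, Function.update_idem, wt]
  simp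
  ring

theorem Pw_nonneg {p : ℝ} (h0 : 0 ≤ p) (h1 : p ≤ 1) (x : E → Bool) : 0 ≤ Pw p x := by
  unfold Pw wt
  apply prod_nonneg
  intro e _
  split_ifs <;> linarith

theorem Ex_prod (p : ℝ) (g : E → Bool → ℝ) :
    Ex p (fun x => ∏ e, g e (x e)) = ∏ e, (p * g e true + (1 - p) * g e false) := by
  have h1 : ∀ e, p * g e true + (1 - p) * g e false = ∑ b : Bool, wt p b * g e b := by
    intro e
    simp [wt]
  simp_rw [h1]
  rw [Finset.prod_univ_sum]
  unfold Ex Pw
  simp_rw [← prod_mul_distrib]
  rw [Fintype.piFinset_univ]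

theorem Ex_const (p c : ℝ) : Ex p (fun _ : E → Bool => c) = c := by
  have h := Ex_prod (E := E) p (fun _ _ => 1)
  unfold Ex at h ⊢
  rw [← sum_mul]
  simp at h
  rw [h]
  simp

theorem Ex_add (p : ℝ) (f g : (E → Bool) → ℝ) :
    Ex p (fun x => f x + g x) = Ex p f + Ex p g := by
  unfold Ex
  rw [← sum_add_distrib]
  exact sum_congr rfl (fun x _ => by ring)

theorem Ex_sub (p : ℝ) (f g : (E → Bool) → ℝ) :
    Ex p (fun x => f x - g x) = Ex p f - Ex p g := by
  unfold Ex
  rw [← sum_sub_distrib]
  exact sum_congr rfl (fun x _ => by ring)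

theorem Ex_mul_left (p c : ℝ) (f : (E → Bool) → ℝ) :
    Ex p (fun x => c * f x) = c * Ex p f := by
  unfold Ex
  rw [mul_sum]
  exact sum_congr rfl (fun x _ => by ring)

theorem Ex_mul_right (p c : ℝ) (f : (E → Bool) → ℝ) :
    Ex p (fun x => f x * c) = Ex p f * c := by
  unfold Ex
  rw [sum_mul]
  exact sum_congr rfl (fun x _ => by ring)

theorem Ex_sum {ι : Type*} (p : ℝ) (s : Finset ι) (f : ι → (E → Bool) → ℝ) :
    Ex p (fun x => ∑ i ∈ s, f i x) = ∑ i ∈ s, Ex p (f i) := by
  unfold Ex
  rw [sum_comm]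
  exact sum_congr rfl (fun x _ => by rw [mul_sum])

theorem Ex_mono {p : ℝ} (h0 : 0 ≤ p) (h1 : p ≤ 1) {f g : (E → Bool) → ℝ}
    (h : ∀ x, f x ≤ g x) : Ex p f ≤ Ex p g :=
  sum_le_sum (fun x _ => mul_le_mul_of_nonneg_left (h x) (Pw_nonneg h0 h1 x))

theorem Ex_nonneg {p : ℝ} (h0 : 0 ≤ p) (h1 : p ≤ 1) {f : (E → Bool) → ℝ}
    (h : ∀ x, 0 ≤ f x) : 0 ≤ Ex p f :=
  sum_nonneg (fun x _ => mul_nonneg (Pw_nonneg h0 h1 x) (h x))

/-- Cauchy–Schwarz. -/
theorem Ex_mul_sq_le {p : ℝ} (h0 : 0 ≤ p) (h1 : p ≤ 1) (f g : (E → Bool) → ℝ) :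
    (Ex p (fun x => f x * g x)) ^ 2 ≤ Ex p (fun x => f x ^ 2) * Ex p (fun x => g x ^ 2) := by
  unfold Ex
  have h := Finset.sum_mul_sq_le_sq_mul_sq (univ : Finset (E → Bool))
    (fun x => Real.sqrt (Pw p x) * f x) (fun x => Real.sqrt (Pw p x) * g x)
  have hs : ∀ x : E → Bool, Real.sqrt (Pw p x) * Real.sqrt (Pw p x) = Pw p x :=
    fun x => Real.mul_self_sqrt (Pw_nonneg h0 h1 x)
  calc (∑ x, Pw p x * (f x * g x)) ^ 2
      = (∑ x, (Real.sqrt (Pw p x) * f x) * (Real.sqrt (Pw p x) * g x)) ^ 2 := by
        congr 1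
        apply sum_congr rfl
        intro x _
        calc Pw p x * (f x * g x)
            = (Real.sqrt (Pw p x) * Real.sqrt (Pw p x)) * (f x * g x) := by rw [hs]
          _ = _ := by ring
    _ ≤ _ := h
    _ = _ := by
        congr 1
        · apply sum_congr rfl
          intro x _
          calc (Real.sqrt (Pw p x) * f x) ^ 2
              = (Real.sqrt (Pw p x) * Real.sqrt (Pw p x)) * f x ^ 2 := by ring
            _ = _ := by rw [hs]
        · apply sum_congr rfl
          intro x _
          calc (Real.sqrt (Pw p x) * g x) ^ 2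
              = (Real.sqrt (Pw p x) * Real.sqrt (Pw p x)) * g x ^ 2 := by ring
            _ = _ := by rw [hs]

/-! ### Fourier -/

theorem chi_eq (p : ℝ) (S : Finset E) (x : E → Bool) :
    chi p S x = ∏ e, (if e ∈ S then ph p (x e) else 1) := by
  unfold chi
  rw [prod_ite_mem, univ_inter]

theorem ph_mean {p : ℝ} : p * ph p true + (1 - p) * ph p false = 0 := by
  unfold ph
  simp
  ring

theorem ph_var {p : ℝ} (h0 : 0 < p) (h1 : p < 1) :
    p * (ph p true * ph p true) + (1 - p) * (ph p false * ph p false) = 1 := by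
  unfold ph
  have hs := sg_pos h0 h1
  have hq := sg_sq h0 h1
  simp
  field_simp
  rw [hq]
  ring

theorem Ex_chi_mul {p : ℝ} (h0 : 0 < p) (h1 : p < 1) (S T : Finset E) :
    Ex p (fun x => chi p S x * chi p T x) = if S = T then 1 else 0 := by
  simp_rw [chi_eq, ← prod_mul_distrib]
  rw [Ex_prod p (fun e b => (if e ∈ S then ph p b else 1) * (if e ∈ T then ph p b else 1))]
  split_ifs with h
  · subst h
    apply prod_eq_one
    intro e _
    split_ifs
    · exact ph_var h0 h1
    · ring
  · have : ∃ e, ¬ (e ∈ S ↔ e ∈ T) := by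
      by_contra hc
      push Not at hc
      exact h (Finset.ext hc)
    obtain ⟨e, he⟩ := this
    apply prod_eq_zero (mem_univ e)
    by_cases hS : e ∈ S
    · have hT : e ∉ T := fun hT => he ⟨fun _ => hT, fun _ => hS⟩
      simp only [hS, hT, if_true, if_false, mul_one]
      exact ph_mean
    · have hT : e ∈ T := by
        by_contra hT
        exact he ⟨fun h => absurd h hS, fun h => absurd h hT⟩
      simp only [hS, hT, if_true, if_false, one_mul]
      exact ph_mean

theorem kernel_sum (p : ℝ) (x y : E → Bool) :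
    ∑ S : Finset E, chi p S x * chi p S y = ∏ e, (1 + ph p (x e) * ph p (y e)) := by
  unfold chi
  simp_rw [← prod_mul_distrib]
  rw [Finset.prod_one_add, Finset.powerset_univ]

theorem kernel_eq {p : ℝ} (h0 : 0 < p) (h1 : p < 1) (x y : E → Bool) :
    Pw p y * ∑ S : Finset E, chi p S x * chi p S y = if y = x then 1 else 0 := by
  rw [kernel_sum]
  unfold Pw
  rw [← prod_mul_distrib]
  have hs := sg_pos h0 h1
  have hq := sg_sq h0 h1
  have hq1 : 0 < 1 - p := by linarith
  split_ifs with h
  · subst h
    apply prod_eq_one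
    intro e _
    unfold wt ph
    cases y e
    · simp
      field_simp
      rw [hq]
      ring
    · simp
      field_simp
      rw [hq]
      ring
  · have : ∃ e, y e ≠ x e := by
      by_contra hc
      push Not at hc
      exact h (funext hc)
    obtain ⟨e, he⟩ := this
    apply prod_eq_zero (mem_univ e)
    unfold wt ph
    cases hy : y e <;> cases hx : x e <;> simp_all
    · right
      field_simp
      rw [hq]
      ring
    · right
      field_simp
      rw [hq]
      ring

theorem fourier {p : ℝ} (h0 : 0 < p) (h1 : p < 1) (f : (E → Bool) → ℝ) (x : E → Bool) :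
    f x = ∑ S, co p f S * chi p S x := by
  unfold co Ex
  simp_rw [sum_mul]
  rw [sum_comm]
  have h : ∀ y : E → Bool, ∑ S : Finset E, Pw p y * (f y * chi p S y) * chi p S x
      = if y = x then f y else 0 := by
    intro y
    have hk := kernel_eq h0 h1 x y
    calc ∑ S : Finset E, Pw p y * (f y * chi p S y) * chi p S x
        = f y * (Pw p y * ∑ S : Finset E, chi p S x * chi p S y) := by
          rw [mul_sum, mul_sum]
          exact sum_congr rfl (fun S _ => by ring)
      _ = _ := by
          rw [hk]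
          split_ifs <;> simp
  simp_rw [h]
  simp

theorem parseval {p : ℝ} (h0 : 0 < p) (h1 : p < 1) (f g : (E → Bool) → ℝ) :
    Ex p (fun x => f x * g x) = ∑ S, co p f S * co p g S := by
  have h : ∀ x, f x * g x = ∑ S, co p g S * (f x * chi p S x) := by
    intro x
    conv_lhs => rw [fourier h0 h1 g x]
    rw [mul_sum]
    exact sum_congr rfl (fun S _ => by ring)
  simp_rw [h]
  rw [Ex_sum]
  apply sum_congr rfl
  intro S _
  rw [Ex_mul_left]
  unfold co
  ring

theorem chi_insert (p : ℝ) {e : E} {S : Finset E} (he : e ∉ S) (x : E → Bool) :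
    chi p (insert e S) x = ph p (x e) * chi p S x := by
  unfold chi
  rw [prod_insert he]

theorem chi_update (p : ℝ) {e : E} {S : Finset E} (he : e ∉ S) (x : E → Bool) (b : Bool) :
    chi p S (Function.update x e b) = chi p S x := by
  unfold chi
  apply prod_congr rfl
  intro i hi
  have hne : i ≠ e := by
    rintro rfl
    exact he hi
  rw [Function.update_of_ne hne]

theorem p_ph_true {p : ℝ} (h0 : 0 < p) (h1 : p < 1) : p * ph p true = sg p := by
  unfold ph
  have hs := sg_pos h0 h1
  have hq := sg_sq h0 h1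
  simp
  field_simp
  linarith

theorem q_ph_false {p : ℝ} (h0 : 0 < p) (h1 : p < 1) : (1 - p) * ph p false = - sg p := by
  unfold ph
  have hs := sg_pos h0 h1
  have hq := sg_sq h0 h1
  simp
  field_simp
  linarith

theorem co_insert {p : ℝ} (h0 : 0 < p) (h1 : p < 1) (f : (E → Bool) → ℝ) {e : E}
    {S : Finset E} (he : e ∉ S) : co p f (insert e S) = sg p * co p (De e f) S := by
  unfold co
  rw [Ex_avg p e, ← Ex_mul_left]
  congr 1
  funext x
  have ht := p_ph_true h0 h1
  have hf := q_ph_false h0 h1
  simp only [chi_insert p he, chi_update p he, Function.update_self, De]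
  calc p * (f (Function.update x e true) * (ph p true * chi p S x))
        + (1 - p) * (f (Function.update x e false) * (ph p false * chi p S x))
      = (p * ph p true) * (f (Function.update x e true) * chi p S x)
        + ((1 - p) * ph p false) * (f (Function.update x e false) * chi p S x) := by ring
    _ = _ := by rw [ht, hf]; ring

theorem co_De_mem {p : ℝ} (h0 : 0 < p) (h1 : p < 1) (f : (E → Bool) → ℝ) {e : E}
    {S : Finset E} (he : e ∈ S) : co p (De e f) S = 0 := by
  obtain ⟨T, hT, rfl⟩ : ∃ T : Finset E, e ∉ T ∧ insert e T = S :=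
    ⟨S.erase e, notMem_erase e S, insert_erase he⟩
  rw [co_insert h0 h1 _ hT]
  have : De e (De e f) = fun _ => 0 := by
    funext x
    simp [De]
  rw [this]
  unfold co
  simp [Ex]

theorem weight_mem {p : ℝ} (h0 : 0 < p) (h1 : p < 1) (f : (E → Bool) → ℝ) (e : E) :
    ∑ R with e ∈ R, co p f R ^ 2 = sg p ^ 2 * Ex p (fun x => De e f x ^ 2) := by
  have h2 : Ex p (fun x => De e f x ^ 2) = ∑ S : Finset E with e ∉ S, co p (De e f) S ^ 2 := by
    have := parseval h0 h1 (De e f) (De e f)
    simp_rw [← pow_two] at this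
    rw [this, sum_filter]
    apply sum_congr rfl
    intro S _
    by_cases hS : e ∈ S
    · rw [co_De_mem h0 h1 f hS]
      simp
    · simp [hS]
  rw [h2, mul_sum]
  refine sum_bij' (fun R _ => R.erase e) (fun S _ => insert e S) ?_ ?_ ?_ ?_ ?_
  · intro R hR
    simp
  · intro S hS
    simp
  · intro R hR
    have heR : e ∈ R := by simpa using hR
    exact insert_erase heR
  · intro S hS
    have heS : e ∉ S := by simpa using hS
    exact erase_insert heS
  · intro R hR
    have heR : e ∈ R := by simpa using hR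
    have := co_insert h0 h1 f (notMem_erase e R)
    rw [insert_erase heR] at this
    rw [this]
    ring

theorem weight_card {p : ℝ} (h0 : 0 < p) (h1 : p < 1) (f : (E → Bool) → ℝ) :
    ∑ R, (R.card : ℝ) * co p f R ^ 2 = sg p ^ 2 * ∑ e, Ex p (fun x => De e f x ^ 2) := by
  rw [mul_sum]
  simp_rw [← weight_mem h0 h1 f, sum_filter]
  rw [sum_comm]
  apply sum_congr rfl
  intro R _
  rw [← sum_filter]
  simp

theorem co_empty (p : ℝ) (f : (E → Bool) → ℝ) : co p f ∅ = Ex p f := by
  unfold co chi
  simp

theorem var_eq {p : ℝ} (h0 : 0 < p) (h1 : p < 1) (f : (E → Bool) → ℝ) :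
    ∑ R with R.Nonempty, co p f R ^ 2 = Ex p (fun x => f x ^ 2) - Ex p f ^ 2 := by
  have := parseval h0 h1 f f
  simp_rw [← pow_two] at this
  rw [this, ← co_empty]
  rw [← sum_filter_add_sum_filter_not univ (fun R : Finset E => R.Nonempty)]
  have h2 : (univ.filter (fun R : Finset E => ¬ R.Nonempty)) = {∅} := by
    ext R
    simp
  rw [h2]
  simp

theorem Ex_comp (p : ℝ) (t : Equiv.Perm E) (h : (E → Bool) → ℝ) :
    Ex p (fun x => h (x ∘ t)) = Ex p h := by
  unfold Ex
  have h1 : ∀ x : E → Bool, Pw p x = Pw p (x ∘ t) := by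
    intro x
    unfold Pw
    exact (Equiv.prod_comp t (fun e => wt p (x e))).symm
  have h2 : ∀ x : E → Bool, x ∘ t = (Equiv.arrowCongr t.symm (Equiv.refl Bool)) x := by
    intro x
    funext e
    simp [Equiv.arrowCongr]
  calc ∑ x, Pw p x * h (x ∘ t) = ∑ x, (fun y => Pw p y * h y) (x ∘ t) := by
        apply sum_congr rfl
        intro x _
        rw [h1 x]
    _ = _ := by
        simp_rw [h2]
        exact Equiv.sum_comp (Equiv.arrowCongr t.symm (Equiv.refl Bool))
          (fun y => Pw p y * h y)

theorem co_map (p : ℝ) (f : (E → Bool) → ℝ) (t : Equiv.Perm E)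
    (hf : ∀ x, f (x ∘ t) = f x) (S : Finset E) :
    co p f (S.map t.toEmbedding) = co p f S := by
  unfold co
  rw [← Ex_comp p t (fun x => f x * chi p S x)]
  congr 1
  funext x
  rw [hf x]
  congr 1
  unfold chi
  rw [prod_map]
  rfl

end cube

end Vale.Agent.H9.FK
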