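import Mathlib

/-!
Definitions for the threshold width of monotone `r`-uniform hypergraph properties.
-/

namespace Vale.Agent.H9.FK

/-- The possible hyperedges on the vertex set `Fin n`: the `r`-element sets of vertices. -/
abbrev Edge (n r : ℕ) : Type := {e : Finset (Fin n) // e.card = r}

/-- A simple `r`-uniform hypergraph on `Fin n`: `x e = true` means that `e` is a hyperedge. -/
abbrev HG (n r : ℕ) : Type := Edge n r → Bool

/-- The image of the hyperedge `e` under the vertex permutation `π`. -/
def moveEdge {n r : ℕ} (π : Equiv.Perm (Fin n)) (e : Edge n r) : Edge n r :=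
  ⟨e.1.map π.toEmbedding, by rw [Finset.card_map]; exact e.2⟩

/-- The hypergraph obtained from `x` by relabelling the vertices with `π`. -/
def relabel {n r : ℕ} (π : Equiv.Perm (Fin n)) (x : HG n r) : HG n r :=
  fun e => x (moveEdge π e)

/-- A hypergraph property: a family of hypergraphs invariant under all vertex permutations. -/
def IsProperty {n r : ℕ} (P : Set (HG n r)) : Prop :=
  ∀ (π : Equiv.Perm (Fin n)) (x : HG n r), relabel π x ∈ P ↔ x ∈ P

/-- Increasing: adding hyperedges preserves membership. -/
def IsIncreasing {n r : ℕ} (P : Set (HG n r)) : Prop :=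
  ∀ x y : HG n r, (∀ e, x e = true → y e = true) → x ∈ P → y ∈ P

/-- Nontrivial: neither empty nor everything. -/
def IsNontrivial {n r : ℕ} (P : Set (HG n r)) : Prop :=
  P.Nonempty ∧ P ≠ Set.univ

open Classical in
/-- `mu p P`: the probability that the random hypergraph, in which each hyperedge is present
independently with probability `p`, lies in `P`. -/
noncomputable def mu {n r : ℕ} (p : ℝ) (P : Set (HG n r)) : ℝ :=
  ∑ x : HG n r, if x ∈ P then ∏ e : Edge n r, (if x e = true then p else 1 - p) else 0

/-- `pa P a = inf {p ∈ [0,1] : mu p P ≥ a}`. -/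
noncomputable def pa {n r : ℕ} (P : Set (HG n r)) (a : ℝ) : ℝ :=
  sInf {p : ℝ | 0 ≤ p ∧ p ≤ 1 ∧ a ≤ mu p P}

/-- The threshold width `p_{1-ε}(P) - p_ε(P)`. -/
noncomputable def width {n r : ℕ} (P : Set (HG n r)) (ε : ℝ) : ℝ :=
  pa P (1 - ε) - pa P ε

end Vale.Agent.H9.FK
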