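import Vale.Agent.H9.FK.Defs

/-!
Total influence of a hypergraph property.
-/

namespace Vale.Agent.H9.FK

/-- The total influence of `P` at `p`: the expected number of pivotal hyperedges, that is the sum
over the hyperedges `e` of the probability that switching `e` on or off changes membership. -/
noncomputable def totalInfluence {n r : ℕ} (p : ℝ) (P : Set (HG n r)) : ℝ :=
  ∑ e : Edge n r, mu p {x : HG n r |
    ¬ (Function.update x e true ∈ P ↔ Function.update x e false ∈ P)}

end Vale.Agent.H9.FK
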