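import Vale.Agent.H9.FK.Cube

namespace Vale.Agent.H9.FK

/-- first term -/
theorem choice_term1 (s L b : ℝ) (hs : 0 < s) (hL : 0 ≤ L) (hb1 : 1 ≤ b) (hb2 : b ≤ 2) (d : ℕ)
    (hd : (1 / 100) * s ^ (2 / b) * L ≤ (d : ℝ) + 1) :
    s ^ 2 * (1 / ((d : ℝ) + 1) ^ b) * L ^ b ≤ 10000 := by
  have hb0 : 0 < b := by linarith
  have h1 : ((1 / 100) * s ^ (2 / b) * L) ^ b ≤ ((d : ℝ) + 1) ^ b :=
    Real.rpow_le_rpow (by positivity) hd hb0.le
  have h2 : ((1 / 100) * s ^ (2 / b) * L) ^ b = (1 / 100 : ℝ) ^ b * s ^ 2 * L ^ b := by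
    rw [Real.mul_rpow (by positivity) hL, Real.mul_rpow (by norm_num) (by positivity),
      ← Real.rpow_mul hs.le]
    have : 2 / b * b = 2 := by field_simp
    rw [this, Real.rpow_two]
  rw [h2] at h1
  have h3 : (1 / 10000 : ℝ) ≤ (1 / 100 : ℝ) ^ b := by
    have : (1 / 100 : ℝ) ^ (2 : ℝ) ≤ (1 / 100 : ℝ) ^ b :=
      Real.rpow_le_rpow_of_exponent_ge (by norm_num) (by norm_num) hb2
    rw [Real.rpow_two] at this
    norm_num at this ⊢
    exact this
  have h4 : 0 ≤ s ^ 2 * L ^ b := by positivity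
  have h5 : (1 / 10000 : ℝ) * (s ^ 2 * L ^ b) ≤ ((d : ℝ) + 1) ^ b := by
    calc (1 / 10000 : ℝ) * (s ^ 2 * L ^ b) ≤ (1 / 100 : ℝ) ^ b * (s ^ 2 * L ^ b) := by gcongr
      _ = (1 / 100 : ℝ) ^ b * s ^ 2 * L ^ b := by ring
      _ ≤ _ := h1
  have h6 : 0 < ((d : ℝ) + 1) ^ b := by positivity
  have e : s ^ 2 * (1 / ((d : ℝ) + 1) ^ b) * L ^ b = (s ^ 2 * L ^ b) / ((d : ℝ) + 1) ^ b := by
    field_simp
  rw [e, div_le_iff₀ h6]
  linarith

/-- (T7) choice of parameters -/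
theorem choice (r : ℕ) (hr : 2 ≤ r) : ∃ C : ℝ, 0 < C ∧ ∀ n : ℕ, 4 ≤ n → ∀ p : ℝ, 0 < p → p < 1 →
    ∃ a v d : ℕ, 1 ≤ a ∧ a ≤ n ∧ 1 ≤ v ∧ 2 * (a - 1) * v ≤ n - 1 ∧
      sg p ^ 2 * (r / ((d : ℝ) + 1) ^ ((r : ℝ) / (r - 1))
        + 2 * r * (rh p ^ (2 * d))⁻¹ * Real.sqrt (1 / (sg p * Real.sqrt a)) + r / v)
        * Real.log n ^ ((r : ℝ) / (r - 1)) ≤ C := by
  have hr' : (2 : ℝ) ≤ r := by exact_mod_cast hr
  refine ⟨r * 100000, by positivity, fun n hn p hp0 hp1 => ?_⟩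
  set s := sg p with hs
  have hs0 : 0 < s := sg_pos hp0 hp1
  have hs1 : s ≤ 1 / 2 := sg_le_half p
  set b : ℝ := (r : ℝ) / (r - 1) with hb
  have hr1 : (0 : ℝ) < r - 1 := by linarith
  have hb1 : 1 ≤ b := by rw [hb, le_div_iff₀ hr1]; linarith
  have hb2 : b ≤ 2 := by rw [hb, div_le_iff₀ hr1]; linarith
  have hb0 : 0 < b := by linarith
  have hn' : (4 : ℝ) ≤ n := by exact_mod_cast hn
  have hn0 : (0 : ℝ) < n := by linarith
  set L := Real.log n with hL
  have hL0 : 0 ≤ L := Real.log_nonneg (by linarith)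
  set u : ℝ := (n : ℝ) ^ (1 / 80 : ℝ) with hu
  have hu1 : 1 ≤ u := Real.one_le_rpow (by linarith) (by norm_num)
  have hu0 : 0 < u := by linarith
  have hun : u ^ 80 = n := by
    rw [hu, ← Real.rpow_natCast, ← Real.rpow_mul hn0.le]; norm_num
  have hLu : L ≤ 80 * u := by
    have := Real.log_le_rpow_div hn0.le (show (0 : ℝ) < 1 / 80 by norm_num)
    rw [← hu] at this
    calc L ≤ u / (1 / 80) := this
      _ = 80 * u := by ring
  have hsqrt : Real.sqrt n = u ^ 40 := by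
    rw [← hun, show u ^ 80 = (u ^ 40) ^ 2 by ring, Real.sqrt_sq (by positivity)]
  -- parameters
  set a := Nat.sqrt n with ha
  have ha2 : 2 ≤ a := by
    rw [ha, Nat.le_sqrt]; exact hn
  have haa : a * a ≤ n := Nat.sqrt_le n
  have han : a ≤ n := le_trans (Nat.le_mul_self a) haa
  have ha_real : u ^ 40 / 2 ≤ a := by
    have h1 : n < (a + 1) * (a + 1) := Nat.lt_succ_sqrt n
    have h2 : (n : ℝ) < ((a : ℝ) + 1) ^ 2 := by
      have : (n : ℝ) < ((a : ℝ) + 1) * ((a : ℝ) + 1) := by exact_mod_cast h1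
      rw [pow_two]; exact this
    have h3 : u ^ 40 < (a : ℝ) + 1 := by
      rw [← hsqrt]
      exact (Real.sqrt_lt' (by positivity)).mpr h2
    have h4 : (2 : ℝ) ≤ a := by exact_mod_cast ha2
    linarith
  set v := a / 2 with hv
  have hv1 : 1 ≤ v := by omega
  have hva : (a : ℝ) / 3 ≤ v := by
    have : a ≤ 3 * v := by omega
    have : (a : ℝ) ≤ 3 * v := by exact_mod_cast this
    linarith
  set d := ⌊(1 / 100) * s ^ (2 / b) * L⌋₊ with hd
  have hd0 : 0 ≤ (1 / 100) * s ^ (2 / b) * L := by positivity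
  have hd1 : (1 / 100) * s ^ (2 / b) * L ≤ (d : ℝ) + 1 := (Nat.lt_floor_add_one _).le
  have hd2 : (d : ℝ) ≤ (1 / 100) * s ^ (2 / b) * L := Nat.floor_le hd0
  refine ⟨a, v, d, by omega, han, hv1, ?_, ?_⟩
  · have h1 : 2 * v ≤ a := by omega
    calc 2 * (a - 1) * v = (a - 1) * (2 * v) := by ring
      _ ≤ (a - 1) * a := Nat.mul_le_mul_left _ h1
      _ = a * a - a := by rw [Nat.sub_mul, one_mul]
      _ ≤ n - 1 := by omega
  · -- bound for `L ^ b`
    have hLb : L ^ b ≤ 6561 * u ^ 2 := by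
      calc L ^ b ≤ (1 + L) ^ b := Real.rpow_le_rpow hL0 (by linarith) hb0.le
        _ ≤ (1 + L) ^ (2 : ℝ) := Real.rpow_le_rpow_of_exponent_le (by linarith) hb2
        _ = (1 + L) ^ 2 := Real.rpow_two _
        _ ≤ (81 * u) ^ 2 := by
            have : 1 + L ≤ 81 * u := by linarith
            gcongr
        _ = 6561 * u ^ 2 := by ring
    have hLb0 : 0 ≤ L ^ b := by positivity
    have t1 := choice_term1 s L b hs0 hL0 hb1 hb2 d hd1
    -- second term
    have t2 : s ^ 2 * ((rh p ^ (2 * d))⁻¹ * Real.sqrt (1 / (s * Real.sqrt a))) * L ^ b ≤ 13122 := by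
      have h1 : (rh p ^ (2 * d))⁻¹ ≤ u ^ 2 := by
        rw [pow_mul, rh_sq hp0 hp1, ← inv_pow]
        have e1 : (2 * sg p / 5)⁻¹ = 5 / (2 * s) := by rw [← hs, inv_div]
        rw [e1]
        have h2 : 5 / (2 * s) ≤ Real.exp (5 / (2 * s)) := by
          have := Real.add_one_le_exp (5 / (2 * s))
          linarith
        have h3 : (5 / (2 * s)) ^ d ≤ Real.exp (d * (5 / (2 * s))) := by
          rw [Real.exp_nat_mul]
          gcongr
        have h4 : s ^ (2 / b) ≤ s := by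
          have : s ^ (2 / b) ≤ s ^ (1 : ℝ) := Real.rpow_le_rpow_of_exponent_ge hs0 (by linarith)
            (by rw [le_div_iff₀ hb0]; linarith)
          rwa [Real.rpow_one] at this
        have h5 : (d : ℝ) * (5 / (2 * s)) ≤ L / 40 := by
          calc (d : ℝ) * (5 / (2 * s)) ≤ ((1 / 100) * s ^ (2 / b) * L) * (5 / (2 * s)) := by gcongr
            _ ≤ ((1 / 100) * s * L) * (5 / (2 * s)) := by gcongr
            _ = L / 40 := by field_simp; ring
        have h6 : Real.exp (L / 40) = u ^ 2 := by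
          rw [hu, ← Real.rpow_natCast, ← Real.rpow_mul hn0.le, Real.rpow_def_of_pos hn0]
          congr 1
          rw [← hL]; push_cast; ring
        exact h3.trans ((Real.exp_le_exp.mpr h5).trans h6.le)
      have hsa : u ^ 20 / 2 ≤ Real.sqrt a := by
        apply Real.le_sqrt_of_sq_le
        have : (u ^ 20 / 2) ^ 2 = u ^ 40 / 4 := by ring
        rw [this]
        have : 0 < u ^ 40 := by positivity
        linarith
      have h7 : s ^ 2 * Real.sqrt (1 / (s * Real.sqrt a)) ≤ 2 / u ^ 10 := by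
        have e2 : s ^ 2 * Real.sqrt (1 / (s * Real.sqrt a))
            = Real.sqrt (s ^ 4 * (1 / (s * Real.sqrt a))) := by
          rw [Real.sqrt_mul (by positivity), show s ^ 4 = (s ^ 2) ^ 2 by ring,
            Real.sqrt_sq (by positivity)]
        rw [e2]
        apply Real.sqrt_le_iff.mpr
        refine ⟨by positivity, ?_⟩
        have hsa0 : 0 < Real.sqrt a := lt_of_lt_of_le (by positivity) hsa
        have e3 : s ^ 4 * (1 / (s * Real.sqrt a)) = s ^ 3 / Real.sqrt a := by field_simp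
        have e4 : (2 / u ^ 10) ^ 2 = 4 / u ^ 20 := by
          rw [div_pow]; norm_num; rw [← pow_mul]
        rw [e3, e4, div_le_div_iff₀ hsa0 (by positivity)]
        have h8 : s ^ 3 ≤ 1 := pow_le_one₀ hs0.le (by linarith)
        have : 0 < u ^ 20 := by positivity
        nlinarith
      have h9 : 0 ≤ (rh p ^ (2 * d))⁻¹ := by
        have := rh_pos hp0 hp1
        positivity
      calc s ^ 2 * ((rh p ^ (2 * d))⁻¹ * Real.sqrt (1 / (s * Real.sqrt a))) * L ^ b
          = (rh p ^ (2 * d))⁻¹ * (s ^ 2 * Real.sqrt (1 / (s * Real.sqrt a))) * L ^ b := by ring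
        _ ≤ u ^ 2 * (2 / u ^ 10) * (6561 * u ^ 2) := by gcongr
        _ = 13122 * (u ^ 4 / u ^ 10) := by ring
        _ ≤ 13122 * 1 := by
            gcongr
            rw [div_le_one (by positivity)]
            exact pow_le_pow_right₀ hu1 (by norm_num)
        _ = 13122 := by norm_num
    have t3 : s ^ 2 * (1 / v) * L ^ b ≤ 39366 := by
      have hv0 : u ^ 40 / 6 ≤ v := by linarith
      have h1 : 1 / (v : ℝ) ≤ 6 / u ^ 40 := by
        rw [div_le_div_iff₀ (by exact_mod_cast hv1) (by positivity)]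
        linarith
      have h2 : s ^ 2 ≤ 1 := pow_le_one₀ hs0.le (by linarith)
      calc s ^ 2 * (1 / v) * L ^ b ≤ 1 * (6 / u ^ 40) * (6561 * u ^ 2) := by gcongr
        _ = 39366 * (u ^ 2 / u ^ 40) := by ring
        _ ≤ 39366 * 1 := by
            gcongr
            rw [div_le_one (by positivity)]
            exact pow_le_pow_right₀ hu1 (by norm_num)
        _ = 39366 := by norm_num
    have hr0 : (0 : ℝ) ≤ r := by linarith
    have e : s ^ 2 * ((r : ℝ) / ((d : ℝ) + 1) ^ b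
        + 2 * (r : ℝ) * (rh p ^ (2 * d))⁻¹ * Real.sqrt (1 / (s * Real.sqrt a)) + (r : ℝ) / v)
          * L ^ b
        = (r : ℝ) * (s ^ 2 * (1 / ((d : ℝ) + 1) ^ b) * L ^ b)
          + 2 * (r : ℝ) * (s ^ 2 * ((rh p ^ (2 * d))⁻¹ * Real.sqrt (1 / (s * Real.sqrt a)))
            * L ^ b)
          + (r : ℝ) * (s ^ 2 * (1 / v) * L ^ b) := by ring
    rw [e]
    have f1 := mul_le_mul_of_nonneg_left t1 hr0
    have f2 := mul_le_mul_of_nonneg_left t2 (show (0 : ℝ) ≤ 2 * r by linarith)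
    have f3 := mul_le_mul_of_nonneg_left t3 hr0
    linarith

end Vale.Agent.H9.FK
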