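import Vale.Agent.H9.FK.Cube

namespace Vale.Agent.H9.FK

open Finset

/-- (T6a) Russo's formula -/
theorem russo {E : Type*} [Fintype E] [DecidableEq E] (f : (E → Bool) → ℝ) (p : ℝ) :
    HasDerivAt (fun q : ℝ => Ex q f) (∑ e, Ex p (De e f)) p := by
  have hwt : ∀ b : Bool, HasDerivAt (fun q : ℝ => wt q b) (if b = true then 1 else -1) p := by
    intro b
    cases b
    · simp only [wt]
      simpa using (hasDerivAt_id p).const_sub 1
    · simp only [wt]
      simpa using hasDerivAt_id' p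
  have hPw : ∀ x : E → Bool, HasDerivAt (fun q : ℝ => Pw q x)
      (∑ e, (∏ i ∈ univ.erase e, wt p (x i)) • (if x e = true then (1 : ℝ) else -1)) p := by
    intro x
    unfold Pw
    exact HasDerivAt.fun_finsetProd fun e _ => hwt (x e)
  have h1 : HasDerivAt (fun q : ℝ => Ex q f)
      (∑ x : E → Bool, (∑ e, (∏ i ∈ univ.erase e, wt p (x i)) •
        (if x e = true then (1 : ℝ) else -1)) * f x) p := by
    unfold Ex
    exact HasDerivAt.fun_sum fun x _ => (hPw x).mul_const (f x)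
  convert! h1 using 1
  simp_rw [sum_mul]
  rw [sum_comm]
  refine sum_congr rfl fun e _ => ?_
  unfold Ex
  rw [sum_avg e (fun x => Pw p x * De e f x),
    sum_avg e (fun x : E → Bool => (∏ i ∈ univ.erase e, wt p (x i)) •
        (if x e = true then (1 : ℝ) else -1) * f x)]
  congr 1
  refine sum_congr rfl fun x _ => ?_
  have hprod : ∀ b : Bool, ∏ i ∈ univ.erase e, wt p (Function.update x e b i)
      = ∏ i ∈ univ.erase e, wt p (x i) := by
    intro b
    refine prod_congr rfl fun i hi => ?_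
    rw [Function.update_of_ne (ne_of_mem_erase hi)]
  have hwt1 : wt p true = p := rfl
  have hwt2 : wt p false = 1 - p := rfl
  simp only [Pw_update, De, Function.update_idem, Function.update_self, hprod, smul_eq_mul,
    hwt1, hwt2, if_true, Bool.false_eq_true, if_false]
  ring

/-- (T6b) from a differential inequality to the width -/
theorem width_of_deriv (m m' : ℝ → ℝ) (hd : ∀ p, HasDerivAt m (m' p) p)
    (hmono : ∀ p, 0 ≤ p → p ≤ 1 → 0 ≤ m' p) (h0 : m 0 = 0) (h1 : m 1 = 1)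
    (c : ℝ) (hc : 0 < c) (hI : ∀ p, 0 < p → p < 1 → c * (m p * (1 - m p)) ≤ m' p)
    (ε : ℝ) (hε : 0 < ε) (hε2 : ε < 1 / 2) :
    sInf {p : ℝ | 0 ≤ p ∧ p ≤ 1 ∧ 1 - ε ≤ m p} - sInf {p : ℝ | 0 ≤ p ∧ p ≤ 1 ∧ ε ≤ m p}
      ≤ 1 / (c * (ε * (1 - ε))) := by
  have hcont : Continuous m := continuous_iff_continuousAt.2 fun p => (hd p).continuousAt
  have hmon : MonotoneOn m (Set.Icc 0 1) := by
    refine monotoneOn_of_deriv_nonneg (convex_Icc 0 1) hcont.continuousOn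
      (fun x _ => (hd x).differentiableAt.differentiableWithinAt) (fun x hx => ?_)
    rw [interior_Icc] at hx
    rw [(hd x).deriv]
    exact hmono x hx.1.le hx.2.le
  have hset : ∀ t : ℝ, t ≤ 1 → sInf {p : ℝ | 0 ≤ p ∧ p ≤ 1 ∧ t ≤ m p} ∈
      {p : ℝ | 0 ≤ p ∧ p ≤ 1 ∧ t ≤ m p} := by
    intro t ht
    have hcl : IsClosed {p : ℝ | 0 ≤ p ∧ p ≤ 1 ∧ t ≤ m p} := by
      have : {p : ℝ | 0 ≤ p ∧ p ≤ 1 ∧ t ≤ m p} = Set.Icc 0 1 ∩ m ⁻¹' (Set.Ici t) := by
        ext p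
        simp [and_assoc]
      rw [this]
      exact isClosed_Icc.inter (isClosed_Ici.preimage hcont)
    exact hcl.csInf_mem ⟨1, zero_le_one, le_rfl, by rw [h1]; exact ht⟩ ⟨0, fun p hp => hp.1⟩
  set a := sInf {p : ℝ | 0 ≤ p ∧ p ≤ 1 ∧ ε ≤ m p} with ha
  set b := sInf {p : ℝ | 0 ≤ p ∧ p ≤ 1 ∧ 1 - ε ≤ m p} with hb
  have ha1 := hset ε (by linarith)
  have hb1 := hset (1 - ε) (by linarith)
  rw [← ha] at ha1
  rw [← hb] at hb1
  have hD : 0 < c * (ε * (1 - ε)) := by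
    have : 0 < 1 - ε := by linarith
    positivity
  have hab : a ≤ b := by
    rw [ha]
    exact csInf_le ⟨0, fun p hp => hp.1⟩ ⟨hb1.1, hb1.2.1, by linarith [hb1.2.2]⟩
  have hder : ∀ x ∈ interior (Set.Icc a b), c * (ε * (1 - ε)) ≤ deriv m x := by
    intro x hx
    rw [interior_Icc] at hx
    rw [(hd x).deriv]
    have hx0 : 0 < x := lt_of_le_of_lt ha1.1 hx.1
    have hx1 : x < 1 := lt_of_lt_of_le hx.2 hb1.2.1
    have h2 : ε ≤ m x := ha1.2.2.trans (hmon ⟨ha1.1, ha1.2.1⟩ ⟨hx0.le, hx1.le⟩ hx.1.le)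
    have h3 : m x < 1 - ε := by
      by_contra hcon
      push Not at hcon
      have : b ≤ x := by
        rw [hb]
        exact csInf_le ⟨0, fun p hp => hp.1⟩ ⟨hx0.le, hx1.le, hcon⟩
      linarith [hx.2]
    have h4 : ε * (1 - ε) ≤ m x * (1 - m x) := by nlinarith
    exact (mul_le_mul_of_nonneg_left h4 hc.le).trans (hI x hx0 hx1)
  have hmvt := Convex.mul_sub_le_image_sub_of_le_deriv (convex_Icc a b) hcont.continuousOn
    (fun x _ => (hd x).differentiableAt.differentiableWithinAt) hder a ⟨le_rfl, hab⟩ b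
    ⟨hab, le_rfl⟩ hab
  have hmb : m b ≤ 1 := by
    rw [← h1]
    exact hmon ⟨hb1.1, hb1.2.1⟩ ⟨zero_le_one, le_rfl⟩ hb1.2.1
  have hma : 0 ≤ m a := hε.le.trans ha1.2.2
  rw [le_div_iff₀ hD]
  linarith

end Vale.Agent.H9.FK
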