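import Vale.Agent.H9.FK.Vertex
import Vale.Agent.H9.FK.Num
import Vale.Agent.H9.FK.Russo

namespace Vale.Agent.H9.FK

open Finset

variable {n r : ℕ}

open Classical in
/-- indicator of a property -/
noncomputable def ind (P : Set (HG n r)) (x : HG n r) : ℝ := if x ∈ P then 1 else 0

theorem ind_01 (P : Set (HG n r)) (x : HG n r) : ind P x = 0 ∨ ind P x = 1 := by
  unfold ind
  split_ifs
  · right; rfl
  · left; rfl

theorem mu_eq (p : ℝ) (P : Set (HG n r)) : mu p P = Ex p (ind P) := by
  classical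
  unfold mu Ex ind
  apply sum_congr rfl
  intro x _
  by_cases hx : x ∈ P
  · simp only [hx, if_true, mul_one]
    rfl
  · simp only [hx, if_false, mul_zero]

theorem ind_symm {P : Set (HG n r)} (hP : IsProperty P) : Symm (ind P) := by
  intro π x
  unfold ind
  by_cases hx : x ∈ P
  · rw [if_pos hx, if_pos ((hP π x).mpr hx)]
  · rw [if_neg hx, if_neg (fun h => hx ((hP π x).mp h))]

theorem ind_mono {P : Set (HG n r)} (hP : IsIncreasing P) (x : HG n r) (e : Edge n r) :
    ind P (Function.update x e false) ≤ ind P (Function.update x e true) := by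
  unfold ind
  by_cases h : Function.update x e false ∈ P
  · have h2 : Function.update x e true ∈ P := by
      apply hP _ _ _ h
      intro e' he'
      by_cases hee : e' = e
      · subst hee
        simp
      · rw [Function.update_of_ne hee] at he' ⊢
        exact he'
    rw [if_pos h, if_pos h2]
  · rw [if_neg h]
    split_ifs <;> norm_num

theorem Ex_zero (f : HG n r → ℝ) : Ex 0 f = f (fun _ => false) := by
  classical
  unfold Ex
  rw [sum_eq_single (fun _ => false)]
  · unfold Pw wt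
    simp
  · intro x _ hx
    have : ∃ e, x e = true := by
      by_contra hc
      push Not at hc
      apply hx
      funext e
      simpa using hc e
    obtain ⟨e, he⟩ := this
    unfold Pw
    rw [prod_eq_zero (mem_univ e)]
    · ring
    · unfold wt
      rw [if_pos he]
  · intro h
    exact absurd (mem_univ _) h

theorem Ex_one (f : HG n r → ℝ) : Ex 1 f = f (fun _ => true) := by
  classical
  unfold Ex
  rw [sum_eq_single (fun _ => true)]
  · unfold Pw wt
    simp
  · intro x _ hx
    have : ∃ e, x e ≠ true := by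
      by_contra hc
      push Not at hc
      exact hx (funext hc)
    obtain ⟨e, he⟩ := this
    unfold Pw
    rw [prod_eq_zero (mem_univ e)]
    · ring
    · unfold wt
      rw [if_neg he]
      ring
  · intro h
    exact absurd (mem_univ _) h

theorem empty_notMem {P : Set (HG n r)} (hI : IsIncreasing P) (hN : IsNontrivial P) :
    (fun _ => false : HG n r) ∉ P := by
  intro h
  apply hN.2
  ext x
  constructor
  · intro _
    trivial
  · intro _
    exact hI _ x (by intro e he; simp at he) h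

theorem full_mem {P : Set (HG n r)} (hI : IsIncreasing P) (hN : IsNontrivial P) :
    (fun _ => true : HG n r) ∈ P := by
  obtain ⟨x, hx⟩ := hN.1
  exact hI x _ (by intro e _; rfl) hx

theorem exp_le_two (hr : 2 ≤ r) : (r : ℝ) / ((r : ℝ) - 1) ≤ 2 := by
  have h2 : (2 : ℝ) ≤ r := by exact_mod_cast hr
  rw [div_le_iff₀ (by linarith)]
  linarith

theorem width_le_one {P : Set (HG n r)} (hI : IsIncreasing P) (hN : IsNontrivial P)
    {ε : ℝ} (hε : 0 < ε) : width P ε ≤ 1 := by
  have hmu : mu 1 P = 1 := by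
    rw [mu_eq, Ex_one]
    unfold ind
    rw [if_pos (full_mem hI hN)]
  have h1 : pa P (1 - ε) ≤ 1 := by
    unfold pa
    apply csInf_le
    · exact ⟨0, fun p hp => hp.1⟩
    · refine ⟨zero_le_one, le_refl _, ?_⟩
      rw [hmu]
      linarith
  have h2 : 0 ≤ pa P ε := by
    unfold pa
    apply Real.sInf_nonneg
    intro p hp
    exact hp.1
  unfold width
  linarith

/-- differential inequality -/
theorem infl_lower (hr : 2 ≤ r) {P : Set (HG n r)} (hP : IsProperty P) (hI : IsIncreasing P)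
    {p C L : ℝ} (h0 : 0 < p) (h1 : p < 1) (hL : 0 ≤ L)
    (hc : ∃ a v d : ℕ, 1 ≤ a ∧ a ≤ n ∧ 1 ≤ v ∧ 2 * (a - 1) * v ≤ n - 1 ∧
      sg p ^ 2 * (r / ((d : ℝ) + 1) ^ ((r : ℝ) / (r - 1))
        + 2 * r * (rh p ^ (2 * d))⁻¹ * Real.sqrt (1 / (sg p * Real.sqrt a)) + r / v)
        * L ≤ C) :
    L * (Ex p (ind P) * (1 - Ex p (ind P))) ≤ C * ∑ e, Ex p (De e (ind P)) := by
  obtain ⟨a, v, d, ha, han, hv, hav, hle⟩ := hc
  have h := main_ineq h0 h1 hr (ind P) (ind_01 P) (ind_mono hI) (ind_symm hP) a v d ha han hv hav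
  have hI0 : 0 ≤ ∑ e, Ex p (De e (ind P)) := by
    apply sum_nonneg
    intro e _
    apply Ex_nonneg h0.le h1.le
    intro x
    exact De_nonneg (ind_mono hI) e x
  calc L * (Ex p (ind P) * (1 - Ex p (ind P)))
      ≤ L * (sg p ^ 2 * (∑ e, Ex p (De e (ind P))) *
      (r / ((d : ℝ) + 1) ^ ((r : ℝ) / (r - 1))
        + 2 * r * (rh p ^ (2 * d))⁻¹ * Real.sqrt (1 / (sg p * Real.sqrt a)) + r / v)) :=
        mul_le_mul_of_nonneg_left h hL
    _ = (sg p ^ 2 * (r / ((d : ℝ) + 1) ^ ((r : ℝ) / (r - 1))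
        + 2 * r * (rh p ^ (2 * d))⁻¹ * Real.sqrt (1 / (sg p * Real.sqrt a)) + r / v)
        * L) * ∑ e, Ex p (De e (ind P)) := by ring
    _ ≤ _ := mul_le_mul_of_nonneg_right hle hI0

/-- (T8) -/
theorem width_bound (r : ℕ) (hr : 2 ≤ r) (ε : ℝ) (hε : 0 < ε) (hε2 : ε < 1 / 2) :
    ∃ C : ℝ, ∀ n : ℕ, r ≤ n → ∀ P : Set (HG n r), IsProperty P → IsIncreasing P →
      IsNontrivial P →
      width P ε ≤ C * Real.log n ^ (-((r : ℝ) / ((r : ℝ) - 1))) := by
  obtain ⟨C0, hC0, hch⟩ := choice r hr
  have hr2 : (2 : ℝ) ≤ r := by exact_mod_cast hr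
  have hβ0 : 0 < (r : ℝ) / ((r : ℝ) - 1) := div_pos (by linarith) (by linarith)
  have hβ2 := exp_le_two hr
  have hε1 : 0 < ε * (1 - ε) := mul_pos hε (by linarith)
  refine ⟨4 + C0 / (ε * (1 - ε)), ?_⟩
  intro n hn P hP hI hN
  have hn2 : (2 : ℝ) ≤ n := by
    have : 2 ≤ n := le_trans hr hn
    exact_mod_cast this
  have hlog : 0 < Real.log n := Real.log_pos (by linarith)
  have hLneg : 0 < Real.log n ^ (-((r : ℝ) / ((r : ℝ) - 1))) := Real.rpow_pos_of_pos hlog _
  have hCpos : 0 < C0 / (ε * (1 - ε)) := div_pos hC0 hε1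
  by_cases h4 : 4 ≤ n
  · -- main case
    set L := Real.log n ^ ((r : ℝ) / ((r : ℝ) - 1)) with hLdef
    have hL : 0 < L := Real.rpow_pos_of_pos hlog _
    have hdiff : ∀ p : ℝ, 0 < p → p < 1 →
        (L / C0) * (mu p P * (1 - mu p P)) ≤ ∑ e, Ex p (De e (ind P)) := by
      intro p h0 h1
      have h := infl_lower hr hP hI h0 h1 hL.le (hch n h4 p h0 h1)
      rw [mu_eq, div_mul_eq_mul_div, div_le_iff₀ hC0]
      linarith
    have hw := width_of_deriv (fun p => mu p P) (fun p => ∑ e, Ex p (De e (ind P)))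
      (by
        intro p
        have := russo (ind P) p
        have hfun : (fun q : ℝ => Ex q (ind P)) = fun p => mu p P := by
          funext q
          rw [mu_eq]
        rw [hfun] at this
        exact this)
      (by
        intro p h0 h1
        apply sum_nonneg
        intro e _
        exact Ex_nonneg h0 h1 (De_nonneg (ind_mono hI) e))
      (by
        change mu 0 P = 0
        rw [mu_eq, Ex_zero]
        unfold ind
        rw [if_neg (empty_notMem hI hN)])
      (by
        change mu 1 P = 1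
        rw [mu_eq, Ex_one]
        unfold ind
        rw [if_pos (full_mem hI hN)])
      (L / C0) (div_pos hL hC0) hdiff ε hε hε2
    have hw2 : width P ε ≤ 1 / (L / C0 * (ε * (1 - ε))) := hw
    have heq : 1 / (L / C0 * (ε * (1 - ε)))
        = (C0 / (ε * (1 - ε))) * Real.log n ^ (-((r : ℝ) / ((r : ℝ) - 1))) := by
      rw [Real.rpow_neg hlog.le, ← hLdef]
      field_simp
    rw [heq] at hw2
    refine le_trans hw2 ?_
    rw [add_mul]
    have : 0 ≤ 4 * Real.log n ^ (-((r : ℝ) / ((r : ℝ) - 1))) := by positivity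
    linarith
  · -- small `n`
    have hn3 : (n : ℝ) ≤ 3 := by
      have : n ≤ 3 := by omega
      exact_mod_cast this
    have hlog2 : Real.log n ≤ 2 := by
      have := Real.log_le_sub_one_of_pos (x := (n : ℝ)) (by linarith)
      linarith
    have h1 : (2 : ℝ) ^ (-((r : ℝ) / ((r : ℝ) - 1)))
        ≤ Real.log n ^ (-((r : ℝ) / ((r : ℝ) - 1))) :=
      Real.rpow_le_rpow_of_nonpos hlog hlog2 (by linarith)
    have h2 : (2 : ℝ) ^ (-(2 : ℝ)) ≤ (2 : ℝ) ^ (-((r : ℝ) / ((r : ℝ) - 1))) :=
      Real.rpow_le_rpow_of_exponent_le (by norm_num) (by linarith)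
    have h3 : (2 : ℝ) ^ (-(2 : ℝ)) = 1 / 4 := by
      rw [Real.rpow_neg (by norm_num)]
      norm_num
    have h4 : 1 / 4 ≤ Real.log n ^ (-((r : ℝ) / ((r : ℝ) - 1))) := by
      rw [← h3]
      exact h2.trans h1
    have h5 := width_le_one hI hN hε
    refine h5.trans ?_
    rw [add_mul]
    have : 0 ≤ C0 / (ε * (1 - ε)) * Real.log n ^ (-((r : ℝ) / ((r : ℝ) - 1))) := by positivity
    linarith

end Vale.Agent.H9.FK
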