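import Vale.Agent.H9.FK.Bonami

namespace Vale.Agent.H9.FK

open Finset

section restr

variable {E : Type*} [Fintype E] [DecidableEq E]

/-- restriction of the coordinates outside `J` to `z` -/
def rst (J : Finset E) (f : (E → Bool) → ℝ) (z x : E → Bool) : ℝ := f (J.piecewise x z)

theorem chi_piecewise (p : ℝ) (J R : Finset E) (x z : E → Bool) :
    chi p R (J.piecewise x z) = chi p (R ∩ J) x * chi p (R \ J) z := by
  unfold chi
  rw [← Finset.prod_inter_mul_prod_sdiff R J]
  congr 1
  · refine Finset.prod_congr rfl fun e he => ?_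
    rw [Finset.piecewise_eq_of_mem _ _ _ (Finset.mem_inter.1 he).2]
  · refine Finset.prod_congr rfl fun e he => ?_
    rw [Finset.piecewise_eq_of_notMem _ _ _ (Finset.mem_sdiff.1 he).2]

theorem co_rst {p : ℝ} (h0 : 0 < p) (h1 : p < 1) (J : Finset E) (f : (E → Bool) → ℝ)
    (z : E → Bool) (S : Finset E) :
    co p (rst J f z) S = ∑ R with R ∩ J = S, co p f R * chi p (R \ J) z := by
  have key : (fun x => rst J f z x * chi p S x)
      = fun x => ∑ R : Finset E, (co p f R * chi p (R \ J) z) * (chi p (R ∩ J) x * chi p S x) := by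
    funext x
    unfold rst
    rw [fourier h0 h1 f (J.piecewise x z), Finset.sum_mul]
    refine Finset.sum_congr rfl fun R _ => ?_
    rw [chi_piecewise]
    ring
  unfold co
  rw [key, Ex_sum]
  simp only [Ex_mul_left, Ex_chi_mul h0 h1]
  rw [Finset.sum_filter]
  refine Finset.sum_congr rfl fun R _ => ?_
  split_ifs <;> simp [co]

theorem Ex_co_rst_sq {p : ℝ} (h0 : 0 < p) (h1 : p < 1) (J : Finset E) (f : (E → Bool) → ℝ)
    (S : Finset E) :
    Ex p (fun z => co p (rst J f z) S ^ 2) = ∑ R with R ∩ J = S, co p f R ^ 2 := by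
  have key : (fun z => co p (rst J f z) S ^ 2)
      = fun z => ∑ R with R ∩ J = S, ∑ R' with R' ∩ J = S,
          (co p f R * co p f R') * (chi p (R \ J) z * chi p (R' \ J) z) := by
    funext z
    rw [co_rst h0 h1, sq, Finset.sum_mul_sum]
    refine Finset.sum_congr rfl fun R _ => Finset.sum_congr rfl fun R' _ => ?_
    ring
  rw [key, Ex_sum]
  refine Finset.sum_congr rfl fun R hR => ?_
  rw [Ex_sum]
  simp only [Ex_mul_left, Ex_chi_mul h0 h1]
  rw [Finset.sum_eq_single R]
  · simp [sq]
  · intro R' hR' hne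
    rw [if_neg, mul_zero]
    intro h
    apply hne
    have h1' := (Finset.mem_filter.1 hR).2
    have h2' := (Finset.mem_filter.1 hR').2
    ext e
    by_cases he : e ∈ J
    · have : e ∈ R' ∩ J ↔ e ∈ R ∩ J := by rw [h1', h2']
      simpa [he] using this
    · have : e ∈ R' \ J ↔ e ∈ R \ J := by rw [h]
      simpa [he] using this
  · intro h
    exact absurd hR h

theorem Ex_rst {p : ℝ} (h0 : 0 < p) (h1 : p < 1) (J : Finset E) (f : (E → Bool) → ℝ) :
    Ex p (fun z => Ex p (rst J f z)) = Ex p f := by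
  have key : (fun z => Ex p (rst J f z))
      = fun z => ∑ R with R ∩ J = ∅, co p f R * (chi p (R \ J) z * chi p ∅ z) := by
    funext z
    rw [← co_empty, co_rst h0 h1]
    refine Finset.sum_congr rfl fun R _ => ?_
    simp [chi]
  rw [key, Ex_sum]
  simp only [Ex_mul_left, Ex_chi_mul h0 h1]
  rw [← co_empty p f, Finset.sum_eq_single ∅]
  · simp
  · intro R hR hne
    rw [if_neg, mul_zero]
    intro h
    apply hne
    have h1' := (Finset.mem_filter.1 hR).2
    rw [← Finset.sdiff_union_inter R J, h, h1']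
    rfl
  · intro h
    exact absurd (Finset.mem_filter.2 ⟨Finset.mem_univ _, by simp⟩) h

theorem De_rst (J : Finset E) (f : (E → Bool) → ℝ) (z : E → Bool) {e : E} (he : e ∈ J) :
    De e (rst J f z) = rst J (De e f) z := by
  funext x
  show f (J.piecewise (Function.update x e true) z) - f (J.piecewise (Function.update x e false) z)
    = f (Function.update (J.piecewise x z) e true) - f (Function.update (J.piecewise x z) e false)
  rw [Finset.update_piecewise_of_mem _ _ _ he, Finset.update_piecewise_of_mem _ _ _ he]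

theorem star {p : ℝ} (h0 : 0 < p) (h1 : p < 1) (f : (E → Bool) → ℝ)
    (h01 : ∀ x, f x = 0 ∨ f x = 1)
    (hm : ∀ x e, f (Function.update x e false) ≤ f (Function.update x e true))
    (J K : Finset E) (hKJ : K ⊆ J) (τ : ℝ)
    (hτ : ∀ z, ∀ e ∈ K, Ex p (De e (rst J f z)) ≤ τ) (d : ℕ) :
    rh p ^ (2 * d) * ∑ R with (R ∩ J).card ≤ d ∧ (R ∩ K).Nonempty, co p f R ^ 2
      ≤ sg p ^ 2 * Real.sqrt τ * ∑ e ∈ K, Ex p (De e f) := by
  have hD01 : ∀ e x, De e f x = 0 ∨ De e f x = 1 := by
    intro e x
    have hmx := hm x e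
    unfold De
    rcases h01 (Function.update x e true) with h | h
    · rcases h01 (Function.update x e false) with h' | h'
      · rw [h, h']; norm_num
      · rw [h, h'] at hmx; norm_num at hmx
    · rcases h01 (Function.update x e false) with h' | h'
      · rw [h, h']; norm_num
      · rw [h, h']; norm_num
  have hrh : 0 ≤ rh p ^ (2 * d) := pow_nonneg (rh_pos h0 h1).le _
  -- union bound
  have hub : ∑ R with (R ∩ J).card ≤ d ∧ (R ∩ K).Nonempty, co p f R ^ 2
      ≤ ∑ e ∈ K, ∑ R with (R ∩ J).card ≤ d ∧ e ∈ R, co p f R ^ 2 := by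
    have hrw : ∀ e ∈ K, ∑ R with (R ∩ J).card ≤ d ∧ e ∈ R, co p f R ^ 2
        = ∑ R : Finset E, if (R ∩ J).card ≤ d ∧ e ∈ R then co p f R ^ 2 else 0 := by
      intro e _
      rw [Finset.sum_filter]
    rw [Finset.sum_congr rfl hrw, Finset.sum_comm, Finset.sum_filter]
    refine Finset.sum_le_sum fun R _ => ?_
    split_ifs with h
    · obtain ⟨hc, e, he⟩ := h
      rw [Finset.mem_inter] at he
      have h1' : (if (R ∩ J).card ≤ d ∧ e ∈ R then co p f R ^ 2 else 0) = co p f R ^ 2 :=
        if_pos ⟨hc, he.1⟩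
      have h2' : (if (R ∩ J).card ≤ d ∧ e ∈ R then co p f R ^ 2 else 0)
          ≤ ∑ i ∈ K, (if (R ∩ J).card ≤ d ∧ i ∈ R then co p f R ^ 2 else 0) := by
        refine Finset.single_le_sum (f := fun e => if (R ∩ J).card ≤ d ∧ e ∈ R then
          co p f R ^ 2 else 0) (fun i _ => ?_) he.2
        split_ifs
        · exact sq_nonneg _
        · exact le_rfl
      rwa [h1'] at h2'
    · refine Finset.sum_nonneg fun i _ => ?_
      split_ifs
      · exact sq_nonneg _
      · exact le_rfl
  refine (mul_le_mul_of_nonneg_left hub hrh).trans ?_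
  rw [Finset.mul_sum, Finset.mul_sum]
  refine Finset.sum_le_sum fun e he => ?_
  have heJ := hKJ he
  -- fibre decomposition
  have hfib : ∑ R with (R ∩ J).card ≤ d ∧ e ∈ R, co p f R ^ 2
      = Ex p (fun z => ∑ S with S.card ≤ d ∧ e ∈ S, co p (rst J f z) S ^ 2) := by
    rw [Ex_sum]
    simp only [Ex_co_rst_sq h0 h1]
    simp only [Finset.sum_filter]
    have : ∀ S : Finset E, (if S.card ≤ d ∧ e ∈ S then
        ∑ R : Finset E, (if R ∩ J = S then co p f R ^ 2 else 0) else 0)
        = ∑ R : Finset E, (if R ∩ J = S then (if S.card ≤ d ∧ e ∈ S then co p f R ^ 2 else 0)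
          else 0) := by
      intro S
      split_ifs with h
      · rfl
      · simp
    rw [Finset.sum_congr rfl fun S _ => this S, Finset.sum_comm]
    refine Finset.sum_congr rfl fun R _ => ?_
    rw [Finset.sum_ite_eq]
    simp [heJ]
  have hper : ∀ z, rh p ^ (2 * d) * ∑ S with S.card ≤ d ∧ e ∈ S, co p (rst J f z) S ^ 2
      ≤ sg p ^ 2 * Real.sqrt τ * Ex p (De e (rst J f z)) := by
    intro z
    have hg01 : ∀ x, De e (rst J f z) x = 0 ∨ De e (rst J f z) x = 1 := by
      intro x
      rw [De_rst J f z heJ]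
      exact hD01 e _
    have hlev := level h0 h1 (De e (rst J f z)) hg01 d
    have hI0 : 0 ≤ Ex p (De e (rst J f z)) :=
      Ex_nonneg h0.le h1.le fun x => by rcases hg01 x with h | h <;> rw [h] <;> norm_num
    have hsum : ∑ S with S.card ≤ d ∧ e ∈ S, co p (rst J f z) S ^ 2
        ≤ sg p ^ 2 * ∑ S with S.card ≤ d, co p (De e (rst J f z)) S ^ 2 := by
      rw [Finset.mul_sum]
      have h1' : ∀ S ∈ (Finset.univ.filter fun S : Finset E => S.card ≤ d ∧ e ∈ S),
          co p (rst J f z) S ^ 2 = sg p ^ 2 * co p (De e (rst J f z)) (S.erase e) ^ 2 := by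
        intro S hS
        have hS' := (Finset.mem_filter.1 hS).2
        have := co_insert h0 h1 (rst J f z) (Finset.notMem_erase e S)
        rw [Finset.insert_erase hS'.2] at this
        rw [this, mul_pow]
      rw [Finset.sum_congr rfl h1']
      rw [← Finset.sum_image (f := fun S => sg p ^ 2 * co p (De e (rst J f z)) S ^ 2)
        (g := fun S : Finset E => S.erase e)]
      · refine Finset.sum_le_sum_of_subset_of_nonneg ?_ ?_
        · intro S hS
          obtain ⟨S', hS', rfl⟩ := Finset.mem_image.1 hS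
          refine Finset.mem_filter.2 ⟨Finset.mem_univ _, ?_⟩
          exact (Finset.card_le_card (Finset.erase_subset _ _)).trans
            (Finset.mem_filter.1 hS').2.1
        · intro S _ _
          positivity
      · intro S hS S' hS' h
        have hS1 := (Finset.mem_filter.1 (Finset.mem_coe.1 hS)).2.2
        have hS2 := (Finset.mem_filter.1 (Finset.mem_coe.1 hS')).2.2
        dsimp only at h
        rw [← Finset.insert_erase hS1, h, Finset.insert_erase hS2]
    calc rh p ^ (2 * d) * ∑ S with S.card ≤ d ∧ e ∈ S, co p (rst J f z) S ^ 2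
        ≤ rh p ^ (2 * d) * (sg p ^ 2 * ∑ S with S.card ≤ d, co p (De e (rst J f z)) S ^ 2) :=
          mul_le_mul_of_nonneg_left hsum hrh
      _ = sg p ^ 2 * (rh p ^ (2 * d) * ∑ S with S.card ≤ d, co p (De e (rst J f z)) S ^ 2) := by
          ring
      _ ≤ sg p ^ 2 * (Ex p (De e (rst J f z)) * Real.sqrt (Ex p (De e (rst J f z)))) :=
          mul_le_mul_of_nonneg_left hlev (sq_nonneg _)
      _ ≤ sg p ^ 2 * (Ex p (De e (rst J f z)) * Real.sqrt τ) := by
          refine mul_le_mul_of_nonneg_left (mul_le_mul_of_nonneg_left ?_ hI0) (sq_nonneg _)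
          exact Real.sqrt_le_sqrt (hτ z e he)
      _ = sg p ^ 2 * Real.sqrt τ * Ex p (De e (rst J f z)) := by ring
  rw [hfib, ← Ex_mul_left]
  calc Ex p (fun z => rh p ^ (2 * d) * ∑ S with S.card ≤ d ∧ e ∈ S, co p (rst J f z) S ^ 2)
      ≤ Ex p (fun z => sg p ^ 2 * Real.sqrt τ * Ex p (De e (rst J f z))) :=
        Ex_mono h0.le h1.le hper
    _ = sg p ^ 2 * Real.sqrt τ * Ex p (fun z => Ex p (rst J (De e f) z)) := by
        rw [Ex_mul_left]
        simp only [De_rst J f _ heJ]
    _ = sg p ^ 2 * Real.sqrt τ * Ex p (De e f) := by rw [Ex_rst h0 h1]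

end restr

end Vale.Agent.H9.FK
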