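import Vale.Agent.H9.FK.Final
import Vale.Agent.H9.FK.Defs2

namespace Vale.Agent.H9.FK

open Finset

/-- from a logistic differential inequality to the width, with logarithmic dependence on `ε` -/
theorem width_logit (m m' : ℝ → ℝ) (hd : ∀ p, HasDerivAt m (m' p) p)
    (hmono : ∀ p, 0 ≤ p → p ≤ 1 → 0 ≤ m' p) (h1 : m 1 = 1)
    (c : ℝ) (hc : 0 < c) (hI : ∀ p, 0 < p → p < 1 → c * (m p * (1 - m p)) ≤ m' p)
    (ε : ℝ) (hε : 0 < ε) (hε2 : ε < 1 / 2) :
    sInf {p : ℝ | 0 ≤ p ∧ p ≤ 1 ∧ 1 - ε ≤ m p} - sInf {p : ℝ | 0 ≤ p ∧ p ≤ 1 ∧ ε ≤ m p}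
      ≤ 4 * Real.log (1 / (2 * ε)) / c := by
  have hcont : Continuous m := continuous_iff_continuousAt.mpr (fun p => (hd p).continuousAt)
  have hmon : MonotoneOn m (Set.Icc 0 1) := by
    apply monotoneOn_of_deriv_nonneg (convex_Icc 0 1) hcont.continuousOn
      (fun x _ => (hd x).differentiableAt.differentiableWithinAt)
    intro x hx
    rw [interior_Icc] at hx
    rw [(hd x).deriv]
    exact hmono x hx.1.le hx.2.le
  have hset : ∀ t : ℝ, t ≤ 1 → sInf {p : ℝ | 0 ≤ p ∧ p ≤ 1 ∧ t ≤ m p} ∈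
      {p : ℝ | 0 ≤ p ∧ p ≤ 1 ∧ t ≤ m p} := by
    intro t ht
    have hcl : IsClosed {p : ℝ | 0 ≤ p ∧ p ≤ 1 ∧ t ≤ m p} := by
      have : {p : ℝ | 0 ≤ p ∧ p ≤ 1 ∧ t ≤ m p} = Set.Icc 0 1 ∩ m ⁻¹' (Set.Ici t) := by
        ext p
        simp [and_assoc]
      rw [this]
      exact isClosed_Icc.inter (isClosed_Ici.preimage hcont)
    exact hcl.csInf_mem ⟨1, zero_le_one, le_rfl, by rw [h1]; exact ht⟩ ⟨0, fun p hp => hp.1⟩
  set a := sInf {p : ℝ | 0 ≤ p ∧ p ≤ 1 ∧ ε ≤ m p} with ha
  set b := sInf {p : ℝ | 0 ≤ p ∧ p ≤ 1 ∧ 1 - ε ≤ m p} with hb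
  have ha1 := hset ε (by linarith)
  have hb1 := hset (1 - ε) (by linarith)
  rw [← ha] at ha1
  rw [← hb] at hb1
  have hab : a ≤ b := by
    rw [ha]
    exact csInf_le ⟨0, fun p hp => hp.1⟩ ⟨hb1.1, hb1.2.1, by linarith [hb1.2.2]⟩
  have hlogε : 2 * (Real.log (1 - ε) - Real.log ε) ≤ 4 * Real.log (1 / (2 * ε)) := by
    have h2 : Real.log (1 - ε) ≤ Real.log (1 / (4 * ε)) := by
      apply Real.log_le_log (by linarith)
      rw [le_div_iff₀ (by linarith)]
      nlinarith [sq_nonneg (1 - 2 * ε)]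
    have h3 : Real.log (1 / (4 * ε)) = - (2 * Real.log 2 + Real.log ε) := by
      rw [one_div, Real.log_inv, Real.log_mul (by norm_num) hε.ne']
      have : (4 : ℝ) = 2 ^ 2 := by norm_num
      rw [this, Real.log_pow]
      push_cast
      ring
    have h4 : Real.log (1 / (2 * ε)) = - (Real.log 2 + Real.log ε) := by
      rw [one_div, Real.log_inv, Real.log_mul (by norm_num) hε.ne']
    rw [h4]
    rw [h3] at h2
    linarith
  have hlog0 : 0 ≤ 4 * Real.log (1 / (2 * ε)) := by
    have : Real.log ε ≤ Real.log (1 - ε) := Real.log_le_log hε (by linarith)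
    linarith
  rcases hab.eq_or_lt with heq | hlt
  · rw [heq, sub_self]
    exact div_nonneg hlog0 hc.le
  · have hlow : ∀ x ∈ Set.Icc a b, ε ≤ m x := by
      intro x hx
      exact ha1.2.2.trans (hmon ⟨ha1.1, ha1.2.1⟩ ⟨ha1.1.trans hx.1, hx.2.trans hb1.2.1⟩ hx.1)
    have hupI : Set.Ico a b ⊆ {x | m x ≤ 1 - ε} := by
      intro x hx
      by_contra hcon
      have hcon' : 1 - ε ≤ m x := by
        exact (not_le.mp hcon).le
      have : b ≤ x := by
        rw [hb]
        exact csInf_le ⟨0, fun p hp => hp.1⟩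
          ⟨ha1.1.trans hx.1, hx.2.le.trans hb1.2.1, hcon'⟩
      linarith [hx.2]
    have hup : ∀ x ∈ Set.Icc a b, m x ≤ 1 - ε := by
      have hcl : IsClosed {x | m x ≤ 1 - ε} := isClosed_le hcont continuous_const
      have h5 := closure_minimal hupI hcl
      rw [closure_Ico hlt.ne] at h5
      intro x hx
      exact h5 hx
    have hder : ∀ x ∈ Set.Icc a b,
        HasDerivAt (fun x => Real.log (m x) - Real.log (1 - m x))
          (m' x / m x + m' x / (1 - m x)) x := by
      intro x hx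
      have h6 : m x ≠ 0 := (lt_of_lt_of_le hε (hlow x hx)).ne'
      have h7 : 1 - m x ≠ 0 := by
        have := hup x hx
        intro h
        linarith
      have h8 := (hd x).log h6
      have h9 := ((hd x).const_sub 1).log h7
      have h10 := h8.sub h9
      have h11 : m' x / m x + m' x / (1 - m x) = m' x / m x - -m' x / (1 - m x) := by
        rw [neg_div, sub_neg_eq_add]
      rw [h11]
      exact h10
    have hcon : ContinuousOn (fun x => Real.log (m x) - Real.log (1 - m x)) (Set.Icc a b) :=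
      fun x hx => (hder x hx).continuousAt.continuousWithinAt
    have hdiff : DifferentiableOn ℝ (fun x => Real.log (m x) - Real.log (1 - m x))
        (interior (Set.Icc a b)) := fun x hx =>
      (hder x (interior_subset hx)).differentiableAt.differentiableWithinAt
    have hge : ∀ x ∈ interior (Set.Icc a b),
        c ≤ deriv (fun x => Real.log (m x) - Real.log (1 - m x)) x := by
      intro x hx
      have hx' := interior_subset hx
      rw [(hder x hx').deriv]
      rw [interior_Icc] at hx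
      have hx0 : 0 < x := lt_of_le_of_lt ha1.1 hx.1
      have hx1 : x < 1 := lt_of_lt_of_le hx.2 hb1.2.1
      have h6 : 0 < m x := lt_of_lt_of_le hε (hlow x hx')
      have h7 : 0 < 1 - m x := by
        have := hup x hx'
        linarith
      have h8 : m' x / m x + m' x / (1 - m x) = m' x / (m x * (1 - m x)) := by
        field_simp
        ring
      rw [h8, le_div_iff₀ (mul_pos h6 h7)]
      exact hI x hx0 hx1
    have hmvt := Convex.mul_sub_le_image_sub_of_le_deriv (convex_Icc a b) hcon hdiff hge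
      a ⟨le_rfl, hab⟩ b ⟨hab, le_rfl⟩ hab
    have hbl := hlow b ⟨hab, le_rfl⟩
    have hbu := hup b ⟨hab, le_rfl⟩
    have hal := hlow a ⟨le_rfl, hab⟩
    have hau := hup a ⟨le_rfl, hab⟩
    have e1 : Real.log (m b) ≤ Real.log (1 - ε) := Real.log_le_log (by linarith) hbu
    have e2 : Real.log ε ≤ Real.log (1 - m b) := Real.log_le_log hε (by linarith)
    have e3 : Real.log ε ≤ Real.log (m a) := Real.log_le_log hε hal
    have e4 : Real.log (1 - m a) ≤ Real.log (1 - ε) := Real.log_le_log (by linarith) (by linarith)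
    rw [le_div_iff₀ hc]
    linarith

variable {n r : ℕ}

theorem totalInfluence_eq {P : Set (HG n r)} (hI : IsIncreasing P) (p : ℝ) :
    totalInfluence p P = ∑ e, Ex p (De e (ind P)) := by
  unfold totalInfluence
  apply sum_congr rfl
  intro e _
  rw [mu_eq]
  congr 1
  funext x
  have hm : Function.update x e false ∈ P → Function.update x e true ∈ P := by
    intro h
    by_contra h2
    have := ind_mono hI x e
    unfold ind at this
    rw [if_pos h, if_neg h2] at this
    norm_num at this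
  unfold De ind
  by_cases h1 : Function.update x e true ∈ P
  · by_cases h2 : Function.update x e false ∈ P
    · simp [h1, h2]
    · simp [h1, h2]
  · have h2 : Function.update x e false ∉ P := fun h => h1 (hm h)
    simp [h1, h2]

theorem poincare_aux {s I V W : ℝ} (hs0 : 0 ≤ s) (hs : s ≤ 1 / 2) (hI : 0 ≤ I)
    (h1 : V ≤ W) (h2 : W = s ^ 2 * I) : V ≤ I := by
  have h3 : s ^ 2 ≤ 1 := by nlinarith
  have h4 : s ^ 2 * I ≤ 1 * I := mul_le_mul_of_nonneg_right h3 hI
  linarith

/-- Poincaré inequality -/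
theorem poincare {P : Set (HG n r)} (hI : IsIncreasing P) {p : ℝ} (h0 : 0 < p) (h1 : p < 1) :
    Ex p (ind P) * (1 - Ex p (ind P)) ≤ ∑ e, Ex p (De e (ind P)) := by
  have hI0 : 0 ≤ ∑ e, Ex p (De e (ind P)) := by
    apply sum_nonneg
    intro e _
    apply Ex_nonneg h0.le h1.le
    intro x
    exact De_nonneg (ind_mono hI) e x
  have e1 := var_eq h0 h1 (ind P)
  have e2 := weight_card h0 h1 (ind P)
  have e3 : (fun x => ind P x ^ 2) = ind P := by
    funext x
    rcases ind_01 P x with h | h <;> rw [h] <;> norm_num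
  have e4 : ∑ e, Ex p (fun x => De e (ind P) x ^ 2) = ∑ e, Ex p (De e (ind P)) := by
    apply sum_congr rfl
    intro e _
    congr 1
    funext x
    exact De_sq (ind_01 P) (ind_mono hI) e x
  rw [e3] at e1
  rw [e4] at e2
  have e5 : ∑ R with R.Nonempty, co p (ind P) R ^ 2
      ≤ ∑ R, (R.card : ℝ) * co p (ind P) R ^ 2 := by
    rw [sum_filter]
    apply sum_le_sum
    intro R _
    by_cases hR : R.Nonempty
    · rw [if_pos hR]
      have h5 : (1 : ℝ) ≤ R.card := by exact_mod_cast card_pos.mpr hR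
      calc co p (ind P) R ^ 2 = 1 * co p (ind P) R ^ 2 := by ring
        _ ≤ _ := mul_le_mul_of_nonneg_right h5 (sq_nonneg _)
    · rw [if_neg hR]
      exact mul_nonneg (Nat.cast_nonneg _) (sq_nonneg _)
  have e8 : Ex p (ind P) * (1 - Ex p (ind P)) = Ex p (ind P) - Ex p (ind P) ^ 2 := by ring
  rw [e8, ← e1]
  exact poincare_aux (sg_pos h0 h1).le (sg_le_half p) hI0 e5 e2

/-- differential inequality for all `n` -/
theorem infl_all (r : ℕ) (hr : 2 ≤ r) : ∃ C : ℝ, 0 < C ∧ ∀ n : ℕ, r ≤ n →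
    ∀ P : Set (HG n r), IsProperty P → IsIncreasing P → ∀ p : ℝ, 0 < p → p < 1 →
      Real.log n ^ ((r : ℝ) / ((r : ℝ) - 1)) * (mu p P * (1 - mu p P))
        ≤ C * totalInfluence p P := by
  obtain ⟨C0, hC0, hch⟩ := choice r hr
  have hr2 : (2 : ℝ) ≤ r := by exact_mod_cast hr
  have hβ0 : 0 < (r : ℝ) / ((r : ℝ) - 1) := div_pos (by linarith) (by linarith)
  have hβ2 := exp_le_two hr
  refine ⟨C0 + 4, by linarith, ?_⟩
  intro n hn P hP hI p h0 h1
  rw [totalInfluence_eq hI, mu_eq]
  have hn2 : (2 : ℝ) ≤ n := by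
    have : 2 ≤ n := le_trans hr hn
    exact_mod_cast this
  have hlog : 0 < Real.log n := Real.log_pos (by linarith)
  have hI0 : 0 ≤ ∑ e, Ex p (De e (ind P)) := by
    apply sum_nonneg
    intro e _
    apply Ex_nonneg h0.le h1.le
    intro x
    exact De_nonneg (ind_mono hI) e x
  by_cases h4 : 4 ≤ n
  · have h := infl_lower hr hP hI h0 h1 (Real.rpow_nonneg hlog.le _) (hch n h4 p h0 h1)
    refine h.trans ?_
    exact mul_le_mul_of_nonneg_right (by linarith) hI0
  · have hn3 : (n : ℝ) ≤ 3 := by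
      have : n ≤ 3 := by omega
      exact_mod_cast this
    have hlog2 : Real.log n ≤ 2 := by
      have := Real.log_le_sub_one_of_pos (x := (n : ℝ)) (by linarith)
      linarith
    have hL : Real.log n ^ ((r : ℝ) / ((r : ℝ) - 1)) ≤ 4 := by
      calc Real.log n ^ ((r : ℝ) / ((r : ℝ) - 1)) ≤ 2 ^ ((r : ℝ) / ((r : ℝ) - 1)) :=
            Real.rpow_le_rpow hlog.le hlog2 hβ0.le
        _ ≤ 2 ^ (2 : ℝ) := Real.rpow_le_rpow_of_exponent_le (by norm_num) hβ2
        _ = 4 := by norm_num
    have hvar := poincare hI h0 h1 (P := P)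
    have hv0 : 0 ≤ Ex p (ind P) * (1 - Ex p (ind P)) := by
      have a1 : 0 ≤ Ex p (ind P) := Ex_nonneg h0.le h1.le (fun x => by
        rcases ind_01 P x with h | h <;> rw [h] <;> norm_num)
      have a2 : Ex p (ind P) ≤ 1 := by
        have := Ex_mono h0.le h1.le (f := ind P) (g := fun _ => 1) (fun x => by
          rcases ind_01 P x with h | h <;> rw [h] <;> norm_num)
        rwa [Ex_const] at this
      exact mul_nonneg a1 (by linarith)
    have hLn : 0 ≤ Real.log n ^ ((r : ℝ) / ((r : ℝ) - 1)) := Real.rpow_nonneg hlog.le _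
    calc Real.log n ^ ((r : ℝ) / ((r : ℝ) - 1)) * (Ex p (ind P) * (1 - Ex p (ind P)))
        ≤ 4 * (Ex p (ind P) * (1 - Ex p (ind P))) := mul_le_mul_of_nonneg_right hL hv0
      _ ≤ 4 * ∑ e, Ex p (De e (ind P)) := mul_le_mul_of_nonneg_left hvar (by norm_num)
      _ ≤ _ := mul_le_mul_of_nonneg_right (by linarith) hI0

/-- Strong form: influence inequality and width with the dependence on `ε`. -/
theorem strong (r : ℕ) (hr : 2 ≤ r) : ∃ C : ℝ, 0 < C ∧ ∀ n : ℕ, r ≤ n →
    ∀ P : Set (HG n r), IsProperty P → IsIncreasing P → IsNontrivial P →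
      (∀ p : ℝ, 0 < p → p < 1 →
        Real.log n ^ ((r : ℝ) / ((r : ℝ) - 1)) * (mu p P * (1 - mu p P))
          ≤ C * totalInfluence p P) ∧
      (∀ ε : ℝ, 0 < ε → ε < 1 / 2 →
        width P ε ≤ C * Real.log (1 / (2 * ε)) * Real.log n ^ (-((r : ℝ) / ((r : ℝ) - 1)))) := by
  obtain ⟨C, hC, h⟩ := infl_all r hr
  refine ⟨4 * C, by linarith, ?_⟩
  intro n hn P hP hI hN
  have hn2 : (2 : ℝ) ≤ n := by
    have : 2 ≤ n := le_trans hr hn
    exact_mod_cast this
  have hlog : 0 < Real.log n := Real.log_pos (by linarith)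
  set L := Real.log n ^ ((r : ℝ) / ((r : ℝ) - 1)) with hLdef
  have hL : 0 < L := Real.rpow_pos_of_pos hlog _
  have hTI : ∀ p : ℝ, 0 ≤ p → p ≤ 1 → 0 ≤ totalInfluence p P := by
    intro p h0 h1
    rw [totalInfluence_eq hI]
    apply sum_nonneg
    intro e _
    exact Ex_nonneg h0 h1 (De_nonneg (ind_mono hI) e)
  constructor
  · intro p h0 h1
    have := h n hn P hP hI p h0 h1
    have := hTI p h0.le h1.le
    nlinarith
  · intro ε hε hε2
    have hw := width_logit (fun p => mu p P) (fun p => totalInfluence p P)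
      (by
        intro p
        have h2 := russo (ind P) p
        have hfun : (fun q : ℝ => Ex q (ind P)) = fun p => mu p P := by
          funext q
          rw [mu_eq]
        rw [hfun, ← totalInfluence_eq hI] at h2
        exact h2)
      hTI
      (by
        change mu 1 P = 1
        rw [mu_eq, Ex_one]
        unfold ind
        rw [if_pos (full_mem hI hN)])
      (L / C) (div_pos hL hC)
      (by
        intro p h0 h1
        have := h n hn P hP hI p h0 h1
        rw [div_mul_eq_mul_div, div_le_iff₀ hC]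
        linarith)
      ε hε hε2
    have hw2 : width P ε ≤ 4 * Real.log (1 / (2 * ε)) / (L / C) := hw
    refine hw2.trans (le_of_eq ?_)
    rw [Real.rpow_neg hlog.le, ← hLdef]
    field_simp

end Vale.Agent.H9.FK
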