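import Vale.Agent.H9.FK.Restr
import Vale.Agent.H9.FK.Defs

namespace Vale.Agent.H9.FK

open Finset

variable {n r : ℕ}

/-- the permutation of the hyperedges induced by a vertex permutation -/
def edgePerm (π : Equiv.Perm (Fin n)) : Equiv.Perm (Edge n r) where
  toFun := moveEdge π
  invFun := moveEdge π.symm
  left_inv := by
    intro e
    apply Subtype.ext
    ext a
    simp [moveEdge]
  right_inv := by
    intro e
    apply Subtype.ext
    ext a
    simp [moveEdge]

/-- symmetric function -/
def Symm (f : HG n r → ℝ) : Prop := ∀ (π : Equiv.Perm (Fin n)) (x : HG n r), f (relabel π x) = f x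

/-- hyperedges meeting `A` -/
def JA (A : Finset (Fin n)) : Finset (Edge n r) := univ.filter (fun e => (e.1 ∩ A).Nonempty)

/-- hyperedges with exactly one vertex in `A` -/
def KA (A : Finset (Fin n)) : Finset (Edge n r) := univ.filter (fun e => (e.1 ∩ A).card = 1)

/-- vertices touched by `R` -/
def VR (R : Finset (Edge n r)) : Finset (Fin n) := R.biUnion (fun e => e.1)

/-- degree of `u` in `R` -/
def dg (R : Finset (Edge n r)) (u : Fin n) : ℕ := (R.filter (fun e => u ∈ e.1)).card

end Vale.Agent.H9.FK
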