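import Vale.Agent.H9.FK.VT5a

namespace Vale.Agent.H9.FK

open Finset

variable {n r : ℕ}

theorem moveEdge_of_disj {A : Finset (Fin n)} {π : Equiv.Perm (Fin n)}
    (hπ : ∀ u, u ∉ A → π u = u) {e : Edge n r} (he : e ∉ JA A) : moveEdge π e = e := by
  have h : ∀ u ∈ e.1, u ∉ A := by
    intro u hu hA
    apply he
    unfold JA
    rw [mem_filter]
    exact ⟨mem_univ _, ⟨u, mem_inter.mpr ⟨hu, hA⟩⟩⟩
  apply Subtype.ext
  unfold moveEdge
  ext w
  rw [mem_map]
  constructor
  · rintro ⟨u, hu, rfl⟩
    have := hπ u (h u hu)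
    change π u ∈ _
    rw [this]
    exact hu
  · intro hw
    exact ⟨w, hw, hπ w (h w hw)⟩

theorem moveEdge_mem_JA {A : Finset (Fin n)} {π : Equiv.Perm (Fin n)}
    (hπ : ∀ u, u ∈ A → π u ∈ A) {e : Edge n r} (he : e ∈ JA A) : moveEdge π e ∈ JA A := by
  unfold JA at he ⊢
  rw [mem_filter] at he ⊢
  obtain ⟨u, hu⟩ := he.2
  rw [mem_inter] at hu
  exact ⟨mem_univ _, ⟨π u, mem_inter.mpr ⟨(mem_moveEdge π e u).mpr hu.1, hπ u hu.2⟩⟩⟩

theorem rst_symm {f : HG n r → ℝ} (hs : Symm f) (A : Finset (Fin n)) (z : HG n r)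
    {π : Equiv.Perm (Fin n)} (hπ : ∀ u, u ∉ A → π u = u) (hπA : ∀ u, u ∈ A → π u ∈ A)
    (x : HG n r) :
    rst (JA A) f z (x ∘ (edgePerm π)) = rst (JA A) f z x := by
  unfold rst
  rw [← hs π ((JA A).piecewise x z)]
  congr 1
  funext e
  change (JA A).piecewise (x ∘ (edgePerm π)) z e = (JA A).piecewise x z (moveEdge π e)
  by_cases he : e ∈ JA A
  · rw [piecewise_eq_of_mem _ _ _ he, piecewise_eq_of_mem _ _ _ (moveEdge_mem_JA hπA he)]
    rfl
  · rw [moveEdge_of_disj hπ he, piecewise_eq_of_notMem _ _ _ he,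
      piecewise_eq_of_notMem _ _ _ he]

theorem infl_le_pf {p : ℝ} (h0 : 0 < p) (h1 : p < 1) (f : HG n r → ℝ)
    (h01 : ∀ x, f x = 0 ∨ f x = 1) (hs : Symm f) (A : Finset (Fin n)) (hA : A.Nonempty)
    (z : HG n r) (e : Edge n r) (he : e ∈ KA A) :
    Ex p (De e (rst (JA A) f z)) ≤ 1 / (sg p * Real.sqrt A.card) := by
  classical
  set F := rst (JA A) f z with hF
  have hF01 : ∀ x, F x = 0 ∨ F x = 1 := fun x => h01 _
  unfold KA at he
  rw [mem_filter] at he
  obtain ⟨i, hi⟩ := card_eq_one.mp he.2
  have hiA : i ∈ A := by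
    have : i ∈ e.1 ∩ A := by rw [hi]; exact mem_singleton_self i
    exact (mem_inter.mp this).2
  have hie : i ∈ e.1 := by
    have : i ∈ e.1 ∩ A := by rw [hi]; exact mem_singleton_self i
    exact (mem_inter.mp this).1
  -- coefficient of a singleton
  have h2 : ∀ e : Edge n r, co p F {e} = sg p * Ex p (De e F) := by
    intro e
    have := co_insert h0 h1 F (notMem_empty e)
    rw [insert_empty, co_empty] at this
    exact this
  have h3 : ∀ j ∈ A, co p F {moveEdge (Equiv.swap i j) e} = sg p * Ex p (De e F) := by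
    intro j hj
    have hsym : ∀ x, F (x ∘ (edgePerm (Equiv.swap i j))) = F x := by
      intro x
      apply rst_symm hs A z
      · intro u hu
        apply Equiv.swap_apply_of_ne_of_ne
        · rintro rfl
          exact hu hiA
        · rintro rfl
          exact hu hj
      · intro u hu
        by_cases hui : u = i
        · subst hui
          rw [Equiv.swap_apply_left]
          exact hj
        · by_cases huj : u = j
          · subst huj
            rw [Equiv.swap_apply_right]
            exact hiA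
          · rw [Equiv.swap_apply_of_ne_of_ne hui huj]
            exact hu
    have h4 := co_map p F (edgePerm (Equiv.swap i j)) hsym {e}
    rw [map_singleton] at h4
    rw [h2 e] at h4
    exact h4
  have hinj : ∀ j ∈ A, ∀ k ∈ A, moveEdge (Equiv.swap i j) e = moveEdge (Equiv.swap i k) e →
      j = k := by
    intro j hj k hk hjk
    have hj1 : j ∈ (moveEdge (Equiv.swap i j) e).1 := by
      have := (mem_moveEdge (Equiv.swap i j) e i).mpr hie
      rwa [Equiv.swap_apply_left] at this
    rw [hjk] at hj1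
    unfold moveEdge at hj1
    obtain ⟨u, hu, huj⟩ := mem_map.mp hj1
    change Equiv.swap i k u = j at huj
    by_cases hui : u = i
    · subst hui
      rw [Equiv.swap_apply_left] at huj
      exact huj.symm
    · exfalso
      by_cases huk : u = k
      · subst huk
        have : u ∈ e.1 ∩ A := mem_inter.mpr ⟨hu, hk⟩
        rw [hi, mem_singleton] at this
        exact hui this
      · rw [Equiv.swap_apply_of_ne_of_ne hui huk] at huj
        subst huj
        have : u ∈ e.1 ∩ A := mem_inter.mpr ⟨hu, hj⟩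
        rw [hi, mem_singleton] at this
        exact hui this
  have h5 : (A.card : ℝ) * (sg p * Ex p (De e F)) ^ 2 ≤ 1 := by
    calc (A.card : ℝ) * (sg p * Ex p (De e F)) ^ 2
        = ∑ j ∈ A, co p F {moveEdge (Equiv.swap i j) e} ^ 2 := by
          rw [sum_congr rfl (fun j hj => by rw [h3 j hj]), sum_const, nsmul_eq_mul]
      _ = ∑ S ∈ A.image (fun j => ({moveEdge (Equiv.swap i j) e} : Finset (Edge n r))),
          co p F S ^ 2 := by
          rw [sum_image]
          intro j hj k hk hjk
          exact hinj j hj k hk (singleton_injective hjk)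
      _ ≤ ∑ S, co p F S ^ 2 :=
          sum_le_sum_of_subset_of_nonneg (subset_univ _) (fun _ _ _ => sq_nonneg _)
      _ = Ex p (fun x => F x ^ 2) := by
          have := parseval h0 h1 F F
          simp_rw [← pow_two] at this
          rw [this]
      _ ≤ Ex p (fun _ : HG n r => (1 : ℝ)) := by
          apply Ex_mono h0.le h1.le
          intro x
          rcases hF01 x with h | h <;> rw [h] <;> norm_num
      _ = 1 := Ex_const p 1
  have hsp := sg_pos h0 h1
  have hc : (0 : ℝ) < A.card := by exact_mod_cast card_pos.mpr hA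
  have hsc : 0 < Real.sqrt A.card := Real.sqrt_pos.mpr hc
  rw [le_div_iff₀ (mul_pos hsp hsc)]
  have h6 : (Ex p (De e F) * (sg p * Real.sqrt A.card)) ^ 2 ≤ 1 ^ 2 := by
    calc (Ex p (De e F) * (sg p * Real.sqrt A.card)) ^ 2
        = (Real.sqrt A.card) ^ 2 * (sg p * Ex p (De e F)) ^ 2 := by ring
      _ = (A.card : ℝ) * (sg p * Ex p (De e F)) ^ 2 := by rw [Real.sq_sqrt hc.le]
      _ ≤ 1 ^ 2 := by rw [one_pow]; exact h5
  exact le_of_sq_le_sq h6 (by norm_num)

end Vale.Agent.H9.FK
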