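import Vale.Agent.H9.FK.VDefs

namespace Vale.Agent.H9.FK

open Finset

variable {n r : ℕ}

/-- image of a set of hyperedges -/
def mv (π : Equiv.Perm (Fin n)) (R : Finset (Edge n r)) : Finset (Edge n r) :=
  R.map (edgePerm π).toEmbedding

theorem mem_mv (π : Equiv.Perm (Fin n)) (R : Finset (Edge n r)) (e : Edge n r) :
    moveEdge π e ∈ mv π R ↔ e ∈ R := by
  unfold mv
  constructor
  · intro h
    obtain ⟨e', he', h2⟩ := mem_map.mp h
    have : e' = e := (edgePerm π).injective h2
    exact this ▸ he'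
  · intro h
    exact mem_map.mpr ⟨e, h, rfl⟩

theorem mem_moveEdge (π : Equiv.Perm (Fin n)) (e : Edge n r) (u : Fin n) :
    π u ∈ (moveEdge π e).1 ↔ u ∈ e.1 := by
  simp [moveEdge]

theorem dg_mv (π : Equiv.Perm (Fin n)) (R : Finset (Edge n r)) (u : Fin n) :
    dg (mv π R) (π u) = dg R u := by
  unfold dg mv
  rw [filter_map, card_map]
  congr 1
  apply filter_congr
  intro e _
  exact mem_moveEdge π e u

theorem mem_VR (R : Finset (Edge n r)) (u : Fin n) : u ∈ VR R ↔ ∃ e ∈ R, u ∈ e.1 := by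
  simp [VR]

theorem mem_VR_mv (π : Equiv.Perm (Fin n)) (R : Finset (Edge n r)) (u : Fin n) :
    π u ∈ VR (mv π R) ↔ u ∈ VR R := by
  rw [mem_VR, mem_VR]
  constructor
  · rintro ⟨e, he, hu⟩
    obtain ⟨e', he', rfl⟩ := mem_map.mp he
    exact ⟨e', he', (mem_moveEdge π e' u).mp hu⟩
  · rintro ⟨e, he, hu⟩
    exact ⟨moveEdge π e, (mem_mv π R e).mpr he, (mem_moveEdge π e u).mpr hu⟩

theorem card_VR_mv (π : Equiv.Perm (Fin n)) (R : Finset (Edge n r)) :
    (VR (mv π R)).card = (VR R).card := by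
  have : VR (mv π R) = (VR R).map π.toEmbedding := by
    ext w
    constructor
    · intro h
      obtain ⟨u, rfl⟩ := π.surjective w
      exact mem_map.mpr ⟨u, (mem_VR_mv π R u).mp h, rfl⟩
    · intro h
      obtain ⟨u, hu, rfl⟩ := mem_map.mp h
      exact (mem_VR_mv π R u).mpr hu
  rw [this, card_map]

theorem co_mv (p : ℝ) {f : HG n r → ℝ} (hs : Symm f) (π : Equiv.Perm (Fin n))
    (R : Finset (Edge n r)) : co p f (mv π R) = co p f R :=
  co_map p f (edgePerm π) (fun x => hs π x) R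

open Classical in
/-- weight of a family -/
noncomputable def wf (p : ℝ) (f : HG n r → ℝ) (Q : Finset (Edge n r) → Prop) : ℝ :=
  ∑ R, if Q R then co p f R ^ 2 else 0

theorem wf_nonneg (p : ℝ) (f : HG n r → ℝ) (Q : Finset (Edge n r) → Prop) :
    0 ≤ wf p f Q := by
  unfold wf
  apply sum_nonneg
  intro R _
  split_ifs
  · positivity
  · exact le_rfl

theorem wf_mono (p : ℝ) (f : HG n r → ℝ) {Q Q' : Finset (Edge n r) → Prop}
    (h : ∀ R, Q R → Q' R) : wf p f Q ≤ wf p f Q' := by
  unfold wf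
  apply sum_le_sum
  intro R _
  by_cases hQ : Q R
  · rw [if_pos hQ, if_pos (h R hQ)]
  · rw [if_neg hQ]
    split_ifs
    · positivity
    · exact le_rfl

theorem wf_mv (p : ℝ) {f : HG n r → ℝ} (hs : Symm f) (π : Equiv.Perm (Fin n))
    (Q : Finset (Edge n r) → Prop) : wf p f (fun R => Q (mv π R)) = wf p f Q := by
  classical
  unfold wf
  have h := Equiv.sum_comp (Equiv.finsetCongr (edgePerm (r := r) π))
    (fun R => if Q R then co p f R ^ 2 else 0)
  rw [← h]
  apply sum_congr rfl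
  intro R _
  have h2 : (Equiv.finsetCongr (edgePerm (r := r) π)) R = mv π R := rfl
  rw [h2, co_mv p hs]

/-- small degree at `u` and small support -/
def LL (v d : ℕ) (u : Fin n) (R : Finset (Edge n r)) : Prop :=
  1 ≤ dg R u ∧ dg R u ≤ d ∧ (VR R).card ≤ v

theorem LL_mv (v d : ℕ) (u : Fin n) (R : Finset (Edge n r)) (π : Equiv.Perm (Fin n)) :
    LL v d (π u) (mv π R) ↔ LL v d u R := by
  unfold LL
  rw [dg_mv, card_VR_mv]

theorem Lam_eq (p : ℝ) {f : HG n r → ℝ} (hs : Symm f) (v d : ℕ) (u u' : Fin n) :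
    wf p f (LL v d u) = wf p f (LL v d u') := by
  have h := wf_mv p hs (Equiv.swap u u') (LL v d u')
  rw [← h]
  congr 1
  funext R
  have h2 := LL_mv v d u R (Equiv.swap u u')
  rw [Equiv.swap_apply_left] at h2
  exact propext h2.symm

theorem mm_eq (p : ℝ) {f : HG n r → ℝ} (hs : Symm f) (v d : ℕ) (u w w' : Fin n)
    (hw : w ≠ u) (hw' : w' ≠ u) :
    wf p f (fun R => LL v d u R ∧ w ∈ VR R) = wf p f (fun R => LL v d u R ∧ w' ∈ VR R) := by
  have h := wf_mv p hs (Equiv.swap w w') (fun R => LL v d u R ∧ w' ∈ VR R)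
  rw [← h]
  congr 1
  funext R
  have h2 := LL_mv v d u R (Equiv.swap w w')
  rw [Equiv.swap_apply_of_ne_of_ne hw.symm hw'.symm] at h2
  have h3 := mem_VR_mv (Equiv.swap w w') R w
  rw [Equiv.swap_apply_left] at h3
  rw [h2, h3]

theorem self_mem_VR {R : Finset (Edge n r)} {u : Fin n} (h : 1 ≤ dg R u) : u ∈ VR R := by
  rw [mem_VR]
  unfold dg at h
  obtain ⟨e, he⟩ := card_pos.mp h
  rw [mem_filter] at he
  exact ⟨e, he.1, he.2⟩

/-- total weight of the pairs `(R, w)` -/
theorem sum_mm_le (p : ℝ) (f : HG n r → ℝ) (v d : ℕ) (u : Fin n) :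
    ∑ w ∈ univ.erase u, wf p f (fun R => LL v d u R ∧ w ∈ VR R)
      ≤ v * wf p f (LL v d u) := by
  classical
  unfold wf
  rw [sum_comm, mul_sum]
  apply sum_le_sum
  intro R _
  by_cases hL : LL v d u R
  · simp only [hL, true_and, if_true]
    rw [← sum_filter, sum_const, nsmul_eq_mul]
    apply mul_le_mul_of_nonneg_right _ (by positivity)
    have h1 : ((univ.erase u).filter (fun w => w ∈ VR R)).card ≤ (VR R).card :=
      card_le_card (fun w hw => (mem_filter.mp hw).2)
    have h2 := hL.2.2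
    exact_mod_cast h1.trans h2
  · simp [hL]

theorem mm_le (p : ℝ) {f : HG n r → ℝ} (hs : Symm f) (v d : ℕ) (u w : Fin n) (hw : w ≠ u) :
    ((n : ℝ) - 1) * wf p f (fun R => LL v d u R ∧ w ∈ VR R) ≤ v * wf p f (LL v d u) := by
  refine le_trans (le_of_eq ?_) (sum_mm_le p f v d u)
  have h1 : ∀ w' ∈ univ.erase u, wf p f (fun R => LL v d u R ∧ w' ∈ VR R)
      = wf p f (fun R => LL v d u R ∧ w ∈ VR R) := by
    intro w' hw'
    exact mm_eq p hs v d u w' w (ne_of_mem_erase hw') hw
  rw [sum_congr rfl h1, sum_const, nsmul_eq_mul, card_erase_of_mem (mem_univ u), card_univ,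
    Fintype.card_fin]
  have : 1 ≤ n := by
    have := u.2
    omega
  push_cast [Nat.cast_sub this]
  ring

theorem good_ge (p : ℝ) {f : HG n r → ℝ} (hs : Symm f) (a v d : ℕ) (A : Finset (Fin n))
    (hA : A.card = a) (han : a ≤ n) (hav : 2 * (a - 1) * v ≤ n - 1) (u : Fin n) (hu : u ∈ A) :
    wf p f (LL v d u) ≤ 2 * wf p f (fun R => LL v d u R ∧ VR R ∩ A = {u}) := by
  classical
  have h1 : wf p f (LL v d u) ≤ wf p f (fun R => LL v d u R ∧ VR R ∩ A = {u})
      + ∑ w ∈ A.erase u, wf p f (fun R => LL v d u R ∧ w ∈ VR R) := by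
    unfold wf
    rw [sum_comm, ← sum_add_distrib]
    apply sum_le_sum
    intro R _
    by_cases hL : LL v d u R
    · by_cases hV : VR R ∩ A = {u}
      · simp only [hL, hV, and_self, if_true, true_and]
        have : 0 ≤ ∑ w ∈ A.erase u, (if w ∈ VR R then co p f R ^ 2 else 0) := by
          apply sum_nonneg
          intro w _
          split_ifs
          · positivity
          · exact le_rfl
        linarith
      · simp only [hL, hV, if_true, true_and, if_false, zero_add]
        obtain ⟨w, hw⟩ : ∃ w, w ∈ VR R ∩ A ∧ w ≠ u := by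
          by_contra hc
          push Not at hc
          apply hV
          ext w
          rw [mem_singleton]
          constructor
          · intro h
            exact hc w h
          · rintro rfl
            exact mem_inter.mpr ⟨self_mem_VR hL.1, hu⟩
        have hwA : w ∈ A.erase u := mem_erase.mpr ⟨hw.2, (mem_inter.mp hw.1).2⟩
        have h2 := single_le_sum (f := fun w => if w ∈ VR R then co p f R ^ 2 else 0)
          (s := A.erase u) (by
            intro w _
            split_ifs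
            · positivity
            · exact le_rfl) hwA
        simp only [(mem_inter.mp hw.1).1, if_true] at h2
        exact h2
    · simp only [hL, false_and, if_false, sum_const_zero, add_zero, le_refl]
  have hn : 1 ≤ n := by
    have := u.2
    omega
  have hL0 := wf_nonneg p f (LL v d u)
  have ha1 : 1 ≤ a := by
    rw [← hA]
    exact card_pos.mpr ⟨u, hu⟩
  have hcard : (A.erase u).card = a - 1 := by rw [card_erase_of_mem hu, hA]
  by_cases hn1 : n = 1
  · have ha : a = 1 := by omega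
    have hE : A.erase u = ∅ := by
      rw [← card_eq_zero, hcard, ha]
    rw [hE, sum_empty] at h1
    have := wf_nonneg p f (fun R => LL v d u R ∧ VR R ∩ A = {u})
    linarith
  · have hnpos : (0 : ℝ) < (n : ℝ) - 1 := by
      have : (2 : ℝ) ≤ n := by
        have : 2 ≤ n := by omega
        exact_mod_cast this
      linarith
    have h2 : ((n : ℝ) - 1) * ∑ w ∈ A.erase u, wf p f (fun R => LL v d u R ∧ w ∈ VR R)
        ≤ ((a : ℝ) - 1) * (v * wf p f (LL v d u)) := by
      rw [mul_sum]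
      calc ∑ w ∈ A.erase u, ((n : ℝ) - 1) * wf p f (fun R => LL v d u R ∧ w ∈ VR R)
          ≤ ∑ w ∈ A.erase u, (v * wf p f (LL v d u)) := by
            apply sum_le_sum
            intro w hw
            exact mm_le p hs v d u w (ne_of_mem_erase hw)
        _ = _ := by
            rw [sum_const, nsmul_eq_mul, hcard, Nat.cast_sub ha1]
            push_cast
            ring
    have h3 : 2 * ((a : ℝ) - 1) * v ≤ (n : ℝ) - 1 := by
      have : ((2 * (a - 1) * v : ℕ) : ℝ) ≤ ((n - 1 : ℕ) : ℝ) := by exact_mod_cast hav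
      push_cast [Nat.cast_sub ha1, Nat.cast_sub hn] at this
      exact this
    have h4 : 2 * (((n : ℝ) - 1) * ∑ w ∈ A.erase u, wf p f (fun R => LL v d u R ∧ w ∈ VR R))
        ≤ ((n : ℝ) - 1) * wf p f (LL v d u) := by
      calc 2 * (((n : ℝ) - 1) * ∑ w ∈ A.erase u, wf p f (fun R => LL v d u R ∧ w ∈ VR R))
          ≤ 2 * (((a : ℝ) - 1) * (v * wf p f (LL v d u))) := by linarith
        _ = (2 * ((a : ℝ) - 1) * v) * wf p f (LL v d u) := by ring
        _ ≤ _ := mul_le_mul_of_nonneg_right h3 hL0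
    have h5 : 2 * ∑ w ∈ A.erase u, wf p f (fun R => LL v d u R ∧ w ∈ VR R)
        ≤ wf p f (LL v d u) := by
      have : ((n : ℝ) - 1) * (2 * ∑ w ∈ A.erase u, wf p f (fun R => LL v d u R ∧ w ∈ VR R))
          ≤ ((n : ℝ) - 1) * wf p f (LL v d u) := by linarith
      exact le_of_mul_le_mul_left this hnpos
    linarith

theorem fam_of_LL {v d : ℕ} {u : Fin n} {R : Finset (Edge n r)} {A : Finset (Fin n)}
    (hL : LL v d u R) (hV : VR R ∩ A = {u}) :
    (R ∩ JA A).card ≤ d ∧ (R ∩ KA A).Nonempty := by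
  have key : ∀ e ∈ R, ∀ w, w ∈ e.1 → w ∈ A → w = u := by
    intro e he w hw hwA
    have : w ∈ VR R ∩ A := mem_inter.mpr ⟨(mem_VR R w).mpr ⟨e, he, hw⟩, hwA⟩
    rw [hV, mem_singleton] at this
    exact this
  have huA : u ∈ A := by
    have : u ∈ VR R ∩ A := by rw [hV]; exact mem_singleton_self u
    exact (mem_inter.mp this).2
  constructor
  · refine le_trans (card_le_card ?_) hL.2.1
    intro e he
    rw [mem_inter] at he
    obtain ⟨heR, heJ⟩ := he
    unfold JA at heJ
    rw [mem_filter] at heJ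
    obtain ⟨w, hw⟩ := heJ.2
    rw [mem_inter] at hw
    rw [mem_filter]
    refine ⟨heR, ?_⟩
    have := key e heR w hw.1 hw.2
    rw [← this]
    exact hw.1
  · have h1 := hL.1
    unfold dg at h1
    obtain ⟨e, he⟩ := card_pos.mp h1
    rw [mem_filter] at he
    refine ⟨e, mem_inter.mpr ⟨he.1, ?_⟩⟩
    unfold KA
    rw [mem_filter]
    refine ⟨mem_univ _, ?_⟩
    have : e.1 ∩ A = {u} := by
      ext w
      rw [mem_inter, mem_singleton]
      constructor
      · rintro ⟨h, h'⟩
        exact key e he.1 w h h'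
      · rintro rfl
        exact ⟨he.2, huA⟩
    rw [this, card_singleton]

theorem sum_good_le (p : ℝ) (f : HG n r → ℝ) (v d : ℕ) (A : Finset (Fin n)) :
    ∑ u ∈ A, wf p f (fun R => LL v d u R ∧ VR R ∩ A = {u})
      ≤ wf p f (fun R => (R ∩ JA A).card ≤ d ∧ (R ∩ KA A).Nonempty) := by
  classical
  unfold wf
  rw [sum_comm]
  apply sum_le_sum
  intro R _
  by_cases h : ∃ u ∈ A, LL v d u R ∧ VR R ∩ A = {u}
  · obtain ⟨u, huA, hL, hV⟩ := h
    rw [sum_eq_single u]
    · rw [if_pos ⟨hL, hV⟩, if_pos (fam_of_LL hL hV)]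
    · intro w _ hw
      rw [if_neg]
      rintro ⟨_, hV'⟩
      rw [hV] at hV'
      exact hw (singleton_injective hV').symm
    · intro hn
      exact absurd huA hn
  · rw [sum_eq_zero]
    · split_ifs
      · positivity
      · exact le_rfl
    · intro u hu
      rw [if_neg]
      rintro ⟨h1, h2⟩
      exact h ⟨u, hu, h1, h2⟩

theorem infl_move {p : ℝ} (h0 : 0 < p) (h1 : p < 1) {f : HG n r → ℝ} (hs : Symm f)
    (π : Equiv.Perm (Fin n)) (e : Edge n r) :
    Ex p (De (moveEdge π e) f) = Ex p (De e f) := by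
  have h2 : ∀ e : Edge n r, co p f {e} = sg p * Ex p (De e f) := by
    intro e
    have := co_insert h0 h1 f (notMem_empty e)
    rw [insert_empty, co_empty] at this
    exact this
  have h3 := co_mv p hs π {e}
  have h4 : mv π {e} = {moveEdge π e} := by
    unfold mv
    rw [map_singleton]
    rfl
  rw [h4, h2, h2] at h3
  exact mul_left_cancel₀ (sg_pos h0 h1).ne' h3

/-- influence near a vertex -/
theorem infl_vertex {p : ℝ} (h0 : 0 < p) (h1 : p < 1) {f : HG n r → ℝ} (hs : Symm f)
    (u : Fin n) :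
    (n : ℝ) * ∑ e : Edge n r with u ∈ e.1, Ex p (De e f) = r * ∑ e, Ex p (De e f) := by
  classical
  have hconst : ∀ u' : Fin n, ∑ e : Edge n r with u' ∈ e.1, Ex p (De e f)
      = ∑ e : Edge n r with u ∈ e.1, Ex p (De e f) := by
    intro u'
    rw [sum_filter, sum_filter]
    rw [← Equiv.sum_comp (edgePerm (Equiv.swap u u'))]
    apply sum_congr rfl
    intro e _
    have h2 : (edgePerm (Equiv.swap u u')) e = moveEdge (Equiv.swap u u') e := rfl
    have h3 := mem_moveEdge (Equiv.swap u u') e u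
    rw [Equiv.swap_apply_left] at h3
    rw [h2, infl_move h0 h1 hs]
    by_cases hu : u ∈ e.1
    · rw [if_pos hu, if_pos (h3.mpr hu)]
    · rw [if_neg hu, if_neg (fun h => hu (h3.mp h))]
  have h2 : ∑ u' : Fin n, ∑ e : Edge n r with u' ∈ e.1, Ex p (De e f)
      = r * ∑ e, Ex p (De e f) := by
    simp_rw [sum_filter]
    rw [sum_comm, mul_sum]
    apply sum_congr rfl
    intro e _
    rw [← sum_filter, sum_const, nsmul_eq_mul]
    congr 2
    rw [filter_mem_eq_inter, univ_inter]
    exact e.2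
  rw [← h2, sum_congr rfl (fun u' _ => hconst u'), sum_const, nsmul_eq_mul, card_univ,
    Fintype.card_fin]

theorem De_nonneg {f : HG n r → ℝ}
    (hm : ∀ x e, f (Function.update x e false) ≤ f (Function.update x e true))
    (e : Edge n r) (x : HG n r) : 0 ≤ De e f x := by
  unfold De
  linarith [hm x e]

theorem infl_KA {p : ℝ} (h0 : 0 < p) (h1 : p < 1) {f : HG n r → ℝ}
    (hm : ∀ x e, f (Function.update x e false) ≤ f (Function.update x e true))
    (hs : Symm f) (A : Finset (Fin n)) :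
    (n : ℝ) * ∑ e ∈ KA A, Ex p (De e f) ≤ A.card * (r * ∑ e : Edge n r, Ex p (De e f)) := by
  classical
  have hnn : ∀ e : Edge n r, 0 ≤ Ex p (De e f) := fun e =>
    Ex_nonneg h0.le h1.le (De_nonneg hm e)
  have h2 : ∑ e ∈ KA A, Ex p (De e f)
      ≤ ∑ u ∈ A, ∑ e : Edge n r with u ∈ e.1, Ex p (De e f) := by
    simp_rw [sum_filter]
    rw [sum_comm]
    unfold KA
    rw [sum_filter]
    apply sum_le_sum
    intro e _
    split_ifs with he
    · obtain ⟨u, hu⟩ := card_eq_one.mp he
      have hu' : u ∈ e.1 ∩ A := by rw [hu]; exact mem_singleton_self u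
      rw [mem_inter] at hu'
      have h3 := single_le_sum (f := fun w => if w ∈ e.1 then Ex p (De e f) else 0)
        (s := A) (by
          intro w _
          split_ifs
          · exact hnn e
          · exact le_rfl) hu'.2
      simp only [hu'.1, if_true] at h3
      exact h3
    · apply sum_nonneg
      intro w _
      split_ifs
      · exact hnn e
      · exact le_rfl
  calc (n : ℝ) * ∑ e ∈ KA A, Ex p (De e f)
      ≤ n * ∑ u ∈ A, ∑ e : Edge n r with u ∈ e.1, Ex p (De e f) :=
        mul_le_mul_of_nonneg_left h2 (Nat.cast_nonneg n)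
    _ = ∑ u ∈ A, (r * ∑ e : Edge n r, Ex p (De e f)) := by
        rw [mul_sum]
        exact sum_congr rfl (fun u _ => infl_vertex h0 h1 hs u)
    _ = _ := by rw [sum_const, nsmul_eq_mul]

theorem arith_aux {a n r R2 c Lam Fam IK I : ℝ} (hr2 : 0 ≤ R2) (hn0 : 0 ≤ n) (hc : 0 ≤ c)
    (hL3 : a * Lam ≤ 2 * Fam) (hstar : R2 * Fam ≤ c * IK) (hK : n * IK ≤ a * (r * I)) :
    a * (R2 * (n * Lam)) ≤ a * (2 * r * c * I) := by
  calc a * (R2 * (n * Lam)) = (R2 * n) * (a * Lam) := by ring
    _ ≤ (R2 * n) * (2 * Fam) := mul_le_mul_of_nonneg_left hL3 (mul_nonneg hr2 hn0)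
    _ = (2 * n) * (R2 * Fam) := by ring
    _ ≤ (2 * n) * (c * IK) := mul_le_mul_of_nonneg_left hstar (by positivity)
    _ = 2 * c * (n * IK) := by ring
    _ ≤ 2 * c * (a * (r * I)) := mul_le_mul_of_nonneg_left hK (by positivity)
    _ = _ := by ring

theorem low_weight_pf {p : ℝ} (h0 : 0 < p) (h1 : p < 1) (f : HG n r → ℝ)
    (h01 : ∀ x, f x = 0 ∨ f x = 1)
    (hm : ∀ x e, f (Function.update x e false) ≤ f (Function.update x e true))
    (hs : Symm f)
    (hinfl : ∀ (A : Finset (Fin n)), A.Nonempty → ∀ (z : HG n r) (e : Edge n r), e ∈ KA A →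
      Ex p (De e (rst (JA A) f z)) ≤ 1 / (sg p * Real.sqrt A.card))
    (a v d : ℕ) (ha : 1 ≤ a) (han : a ≤ n) (hav : 2 * (a - 1) * v ≤ n - 1) :
    rh p ^ (2 * d) * ∑ R : Finset (Edge n r) with
        ((∃ u, 1 ≤ dg R u ∧ dg R u ≤ d) ∧ (VR R).card ≤ v), co p f R ^ 2
      ≤ 2 * r * sg p ^ 2 * Real.sqrt (1 / (sg p * Real.sqrt a)) * ∑ e, Ex p (De e f) := by
  classical
  obtain ⟨A, -, hA⟩ := exists_subset_card_eq (s := (univ : Finset (Fin n))) (n := a)
    (by rw [card_univ, Fintype.card_fin]; exact han)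
  have hAne : A.Nonempty := card_pos.mp (by omega)
  have hAJ : KA (r := r) A ⊆ JA A := by
    intro e he
    unfold KA at he
    unfold JA
    rw [mem_filter] at he ⊢
    exact ⟨mem_univ _, card_pos.mp (by omega)⟩
  have hstar := star h0 h1 f h01 hm (JA A) (KA A) hAJ (1 / (sg p * Real.sqrt a))
    (fun z e he => by
      have := hinfl A hAne z e he
      rwa [hA] at this) d
  -- the left side
  have hL1 : ∑ R : Finset (Edge n r) with
        ((∃ u, 1 ≤ dg R u ∧ dg R u ≤ d) ∧ (VR R).card ≤ v), co p f R ^ 2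
      ≤ ∑ u : Fin n, wf p f (LL v d u) := by
    unfold wf
    rw [sum_comm, sum_filter]
    apply sum_le_sum
    intro R _
    split_ifs with h
    · obtain ⟨⟨u, hu1, hu2⟩, hv⟩ := h
      have h3 := single_le_sum (f := fun w => if LL v d w R then co p f R ^ 2 else 0)
        (s := univ) (by
          intro w _
          split_ifs
          · positivity
          · exact le_rfl) (mem_univ u)
      have hLL : LL v d u R := ⟨hu1, hu2, hv⟩
      rw [if_pos hLL] at h3
      exact h3
    · apply sum_nonneg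
      intro w _
      split_ifs
      · positivity
      · exact le_rfl
  obtain ⟨u0, hu0⟩ := hAne
  have hL2 : ∑ u : Fin n, wf p f (LL v d u) = n * wf p f (LL v d u0) := by
    rw [sum_congr rfl (fun u _ => Lam_eq p hs v d u u0), sum_const, nsmul_eq_mul, card_univ,
      Fintype.card_fin]
  have hL3 : (a : ℝ) * wf p f (LL v d u0)
      ≤ 2 * wf p f (fun R => (R ∩ JA A).card ≤ d ∧ (R ∩ KA A).Nonempty) := by
    calc (a : ℝ) * wf p f (LL v d u0) = ∑ u ∈ A, wf p f (LL v d u) := by
          rw [sum_congr rfl (fun u _ => Lam_eq p hs v d u u0), sum_const, nsmul_eq_mul, hA]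
      _ ≤ ∑ u ∈ A, 2 * wf p f (fun R => LL v d u R ∧ VR R ∩ A = {u}) := by
          apply sum_le_sum
          intro u hu
          exact good_ge p hs a v d A hA han hav u hu
      _ = 2 * ∑ u ∈ A, wf p f (fun R => LL v d u R ∧ VR R ∩ A = {u}) := by rw [mul_sum]
      _ ≤ _ := by
          have := sum_good_le p f v d A
          linarith
  have hW : wf p f (fun R => (R ∩ JA A).card ≤ d ∧ (R ∩ KA A).Nonempty)
      = ∑ R : Finset (Edge n r) with (R ∩ JA A).card ≤ d ∧ (R ∩ KA A).Nonempty,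
        co p f R ^ 2 := by
    unfold wf
    rw [sum_filter]
    apply sum_congr rfl
    intro R _
    congr
  rw [← hW] at hstar
  have hK := infl_KA h0 h1 hm hs A
  rw [hA] at hK
  have hr2 : 0 ≤ rh p ^ (2 * d) := pow_nonneg (rh_pos h0 h1).le _
  have hc : 0 ≤ sg p ^ 2 * Real.sqrt (1 / (sg p * Real.sqrt a)) :=
    mul_nonneg (sq_nonneg _) (Real.sqrt_nonneg _)
  have hapos : (0 : ℝ) < a := by exact_mod_cast ha
  have hn0 : (0 : ℝ) ≤ n := Nat.cast_nonneg n
  have hfin := arith_aux hr2 hn0 hc hL3 hstar hK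
  have hfin2 := le_of_mul_le_mul_left hfin hapos
  have h6 : 2 * (r : ℝ) * sg p ^ 2 * Real.sqrt (1 / (sg p * Real.sqrt a))
      * ∑ e : Edge n r, Ex p (De e f)
      = 2 * (r : ℝ) * (sg p ^ 2 * Real.sqrt (1 / (sg p * Real.sqrt a)))
      * ∑ e : Edge n r, Ex p (De e f) := by ring
  rw [h6]
  refine le_trans ?_ hfin2
  apply mul_le_mul_of_nonneg_left _ hr2
  rw [← hL2]
  exact hL1

end Vale.Agent.H9.FK
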