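import Vale.Agent.H9.FK.VDefs

namespace Vale.Agent.H9.FK

open Finset

variable {n r : ℕ}

theorem mem_VRb {R : Finset (Edge n r)} {u : Fin n} : u ∈ VR R ↔ ∃ e ∈ R, u ∈ e.1 := by
  unfold VR
  simp only [mem_biUnion]

theorem one_le_dg {R : Finset (Edge n r)} {u : Fin n} (h : u ∈ VR R) : 1 ≤ dg R u := by
  obtain ⟨e, he, hu⟩ := mem_VRb.mp h
  unfold dg
  exact card_pos.mpr ⟨e, by simp [he, hu]⟩

theorem sum_dg (R : Finset (Edge n r)) : ∑ u ∈ VR R, dg R u = r * R.card := by
  have h : ∀ u, dg R u = ∑ e ∈ R, if u ∈ e.1 then 1 else 0 := by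
    intro u
    unfold dg
    rw [card_filter]
  simp_rw [h]
  rw [sum_comm]
  have h2 : ∀ e ∈ R, ∑ u ∈ VR R, (if u ∈ e.1 then 1 else 0) = r := by
    intro e he
    rw [← card_filter]
    have h3 : (VR R).filter (fun u => u ∈ e.1) = e.1 := by
      ext u
      simp only [mem_filter]
      constructor
      · exact fun h => h.2
      · exact fun h => ⟨mem_VRb.mpr ⟨e, he, h⟩, h⟩
    rw [h3]
    exact e.2
  rw [sum_congr rfl h2, sum_const, smul_eq_mul, mul_comm]

theorem card_VR_le (R : Finset (Edge n r)) : (VR R).card ≤ r * R.card := by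
  rw [← sum_dg R]
  calc (VR R).card = ∑ u ∈ VR R, 1 := by simp
    _ ≤ _ := sum_le_sum (fun u hu => one_le_dg hu)

theorem dg_le (R : Finset (Edge n r)) (hr : 2 ≤ r) {u : Fin n} (hu : u ∈ VR R) :
    dg R u ≤ (VR R).card ^ (r - 1) := by
  unfold dg
  calc (R.filter (fun e => u ∈ e.1)).card
      ≤ (powersetCard (r - 1) ((VR R).erase u)).card := by
        refine card_le_card_of_injOn (fun e => e.1.erase u) ?_ ?_
        · intro e he
          have he' := mem_filter.mp (mem_coe.mp he)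
          rw [mem_coe, mem_powersetCard]
          refine ⟨?_, ?_⟩
          · intro v hv
            rw [mem_erase] at hv ⊢
            exact ⟨hv.1, mem_VRb.mpr ⟨e, he'.1, hv.2⟩⟩
          · rw [card_erase_of_mem he'.2, e.2]
        · intro e he e' he' h
          have h1 := (mem_filter.mp (mem_coe.mp he)).2
          have h2 := (mem_filter.mp (mem_coe.mp he')).2
          apply Subtype.ext
          have h3 : e.1.erase u = e'.1.erase u := h
          rw [← insert_erase h1, ← insert_erase h2, h3]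
    _ = ((VR R).card - 1).choose (r - 1) := by
        rw [card_powersetCard, card_erase_of_mem hu]
    _ ≤ ((VR R).card - 1) ^ (r - 1) := Nat.choose_le_pow _ _
    _ ≤ (VR R).card ^ (r - 1) := Nat.pow_le_pow_left (Nat.sub_le _ _) _

/-- (T5b) sets without vertices of small degree are large -/
theorem card_large_pf (hr : 2 ≤ r) (R : Finset (Edge n r)) (hR : R.Nonempty) (d : ℕ)
    (h : ∀ u, 1 ≤ dg R u → d + 1 ≤ dg R u) : (d + 1) ^ r ≤ (r * R.card) ^ (r - 1) := by
  obtain ⟨e, he⟩ := hR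
  have hne : e.1.Nonempty := by
    rw [← card_pos, e.2]
    omega
  obtain ⟨u, hu⟩ := hne
  have huV : u ∈ VR R := mem_VRb.mpr ⟨e, he, hu⟩
  have h1 : d + 1 ≤ (VR R).card ^ (r - 1) :=
    (h u (one_le_dg huV)).trans (dg_le R hr huV)
  have h2 : (VR R).card * (d + 1) ≤ r * R.card := by
    rw [← sum_dg R]
    calc (VR R).card * (d + 1) = ∑ u ∈ VR R, (d + 1) := by simp
      _ ≤ _ := sum_le_sum (fun u hu => h u (one_le_dg hu))
  calc (d + 1) ^ r = (d + 1) * (d + 1) ^ (r - 1) := by
        rw [← pow_succ']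
        congr 1
        omega
    _ ≤ (VR R).card ^ (r - 1) * (d + 1) ^ (r - 1) := Nat.mul_le_mul_right _ h1
    _ = ((VR R).card * (d + 1)) ^ (r - 1) := by rw [mul_pow]
    _ ≤ (r * R.card) ^ (r - 1) := Nat.pow_le_pow_left h2 _

end Vale.Agent.H9.FK
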