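import Vale.Agent.H9.FK.VT5b

namespace Vale.Agent.H9.FK

open Finset

variable {n r : ℕ}

theorem De_zero_or_one {f : HG n r → ℝ} (h01 : ∀ x, f x = 0 ∨ f x = 1)
    (hm : ∀ x e, f (Function.update x e false) ≤ f (Function.update x e true))
    (e : Edge n r) (x : HG n r) : De e f x = 0 ∨ De e f x = 1 := by
  unfold De
  have h := hm x e
  rcases h01 (Function.update x e true) with h1 | h1
  · rcases h01 (Function.update x e false) with h2 | h2
    · left
      rw [h1, h2]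
      norm_num
    · rw [h1, h2] at h
      norm_num at h
  · rcases h01 (Function.update x e false) with h2 | h2
    · right
      rw [h1, h2]
      norm_num
    · left
      rw [h1, h2]
      norm_num

theorem De_sq {f : HG n r → ℝ} (h01 : ∀ x, f x = 0 ∨ f x = 1)
    (hm : ∀ x e, f (Function.update x e false) ≤ f (Function.update x e true))
    (e : Edge n r) (x : HG n r) : De e f x ^ 2 = De e f x := by
  rcases De_zero_or_one h01 hm e x with h | h <;> rw [h] <;> norm_num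

theorem rpow_card_le (hr : 2 ≤ r) (d k : ℕ) (hcl : (d + 1) ^ r ≤ (r * k) ^ (r - 1)) :
    ((d : ℝ) + 1) ^ ((r : ℝ) / (r - 1)) ≤ (r : ℝ) * k := by
  have hr1 : (1 : ℝ) < r := by exact_mod_cast (by omega : 1 < r)
  have hcl' : ((d : ℝ) + 1) ^ r ≤ ((r : ℝ) * k) ^ (r - 1) := by
    exact_mod_cast hcl
  have hd1 : (0 : ℝ) ≤ (d : ℝ) + 1 := by positivity
  have hrr : (0 : ℝ) < (r : ℝ) - 1 := by linarith
  have hc1 : ((r - 1 : ℕ) : ℝ) = (r : ℝ) - 1 := by
    rw [Nat.cast_sub (by omega)]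
    simp
  have h3 := Real.rpow_le_rpow (by positivity) hcl' (z := 1 / ((r : ℝ) - 1)) (by positivity)
  rw [← Real.rpow_natCast, ← Real.rpow_natCast, ← Real.rpow_mul hd1,
    ← Real.rpow_mul (by positivity), hc1] at h3
  rw [mul_one_div_cancel hrr.ne', Real.rpow_one] at h3
  rw [mul_one_div] at h3
  exact h3

theorem one_le_coef (hr : 2 ≤ r) (R : Finset (Edge n r)) (hR : R.Nonempty) (v d : ℕ)
    (hv : 1 ≤ v) (hc : ¬ ((∃ u, 1 ≤ dg R u ∧ dg R u ≤ d) ∧ (VR R).card ≤ v)) :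
    1 ≤ (r / ((d : ℝ) + 1) ^ ((r : ℝ) / (r - 1)) + r / (v : ℝ)) * (R.card : ℝ) := by
  have hr0 : (0 : ℝ) < r := by exact_mod_cast (by omega : 0 < r)
  have hv0 : (0 : ℝ) < v := by exact_mod_cast (by omega : 0 < v)
  have hcard : (0 : ℝ) ≤ R.card := Nat.cast_nonneg _
  have hBpos : 0 < ((d : ℝ) + 1) ^ ((r : ℝ) / (r - 1)) := Real.rpow_pos_of_pos (by positivity) _
  by_cases hV : (VR R).card ≤ v
  · -- no vertex of low degree
    have hnl : ∀ u, 1 ≤ dg R u → d + 1 ≤ dg R u := by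
      intro u hu
      by_contra hcon
      exact hc ⟨⟨u, hu, by omega⟩, hV⟩
    have hle := rpow_card_le hr d R.card (card_large_pf hr R hR d hnl)
    have h4 : 1 ≤ r / ((d : ℝ) + 1) ^ ((r : ℝ) / (r - 1)) * (R.card : ℝ) := by
      rw [div_mul_eq_mul_div, le_div_iff₀ hBpos]
      linarith
    have h5 : 0 ≤ r / (v : ℝ) * (R.card : ℝ) := by positivity
    linarith
  · have h6 : (v : ℝ) ≤ (r : ℝ) * R.card := by
      have := card_VR_le R
      exact_mod_cast (by omega : v ≤ r * R.card)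
    have h4 : 1 ≤ r / (v : ℝ) * (R.card : ℝ) := by
      rw [div_mul_eq_mul_div, le_div_iff₀ hv0]
      linarith
    have h5 : 0 ≤ r / ((d : ℝ) + 1) ^ ((r : ℝ) / (r - 1)) * (R.card : ℝ) := by positivity
    linarith

open Classical in
theorem sum_split (p : ℝ) (hr : 2 ≤ r) (f : HG n r → ℝ) (v d : ℕ) (hv : 1 ≤ v) :
    ∑ R with R.Nonempty, co p f R ^ 2
      ≤ (∑ R : Finset (Edge n r) with
        ((∃ u, 1 ≤ dg R u ∧ dg R u ≤ d) ∧ (VR R).card ≤ v), co p f R ^ 2)
        + (r / ((d : ℝ) + 1) ^ ((r : ℝ) / (r - 1)) + r / (v : ℝ))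
          * ∑ R, (R.card : ℝ) * co p f R ^ 2 := by
  set K : ℝ := r / ((d : ℝ) + 1) ^ ((r : ℝ) / (r - 1)) + r / (v : ℝ) with hK
  have hK0 : 0 ≤ K := by
    have hBpos : 0 < ((d : ℝ) + 1) ^ ((r : ℝ) / (r - 1)) :=
      Real.rpow_pos_of_pos (by positivity) _
    rw [hK]
    positivity
  have hnn : ∀ R : Finset (Edge n r), 0 ≤ co p f R ^ 2 := fun R => sq_nonneg _
  have hkn : ∀ R : Finset (Edge n r), 0 ≤ K * ((R.card : ℝ) * co p f R ^ 2) := fun R =>
    mul_nonneg hK0 (mul_nonneg (Nat.cast_nonneg _) (hnn R))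
  rw [mul_sum]
  nth_rewrite 2 [sum_filter]
  rw [← sum_add_distrib]
  refine le_trans ?_ (sum_le_sum_of_subset_of_nonneg (filter_subset (fun R => R.Nonempty) _) ?_)
  · apply sum_le_sum
    intro R hR
    by_cases hc : (∃ u, 1 ≤ dg R u ∧ dg R u ≤ d) ∧ (VR R).card ≤ v
    · rw [if_pos hc]
      have := hkn R
      linarith
    · rw [if_neg hc, zero_add]
      have h1 := one_le_coef hr R (mem_filter.mp hR).2 v d hv hc
      calc co p f R ^ 2 = 1 * co p f R ^ 2 := by ring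
        _ ≤ (K * (R.card : ℝ)) * co p f R ^ 2 := mul_le_mul_of_nonneg_right h1 (hnn R)
        _ = _ := by ring
  · intro R _ _
    split_ifs
    · exact add_nonneg (hnn R) (hkn R)
    · exact add_nonneg le_rfl (hkn R)

/-- (T5c) main inequality, from the low weight bound -/
theorem main_ineq_of {p : ℝ} (h0 : 0 < p) (h1 : p < 1) (hr : 2 ≤ r) (f : HG n r → ℝ)
    (h01 : ∀ x, f x = 0 ∨ f x = 1)
    (hm : ∀ x e, f (Function.update x e false) ≤ f (Function.update x e true))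
    (a v d : ℕ) (hv : 1 ≤ v)
    (hlow : rh p ^ (2 * d) * ∑ R : Finset (Edge n r) with
        ((∃ u, 1 ≤ dg R u ∧ dg R u ≤ d) ∧ (VR R).card ≤ v), co p f R ^ 2
      ≤ 2 * r * sg p ^ 2 * Real.sqrt (1 / (sg p * Real.sqrt a)) * ∑ e, Ex p (De e f)) :
    Ex p f * (1 - Ex p f) ≤ sg p ^ 2 * (∑ e, Ex p (De e f)) *
      (r / ((d : ℝ) + 1) ^ ((r : ℝ) / (r - 1))
        + 2 * r * (rh p ^ (2 * d))⁻¹ * Real.sqrt (1 / (sg p * Real.sqrt a)) + r / v) := by
  have hrh := rh_pos h0 h1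
  have hrhd : 0 < rh p ^ (2 * d) := pow_pos hrh _
  have hvar : ∑ R with R.Nonempty, co p f R ^ 2 = Ex p f * (1 - Ex p f) := by
    rw [var_eq h0 h1]
    have : (fun x => f x ^ 2) = f := by
      funext x
      rcases h01 x with h | h <;> rw [h] <;> norm_num
    rw [this]
    ring
  have hI2 : ∑ R, (R.card : ℝ) * co p f R ^ 2 = sg p ^ 2 * ∑ e, Ex p (De e f) := by
    rw [weight_card h0 h1]
    congr 1
    apply sum_congr rfl
    intro e _
    congr 1
    funext x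
    exact De_sq h01 hm e x
  have hs := sum_split p hr f v d hv
  rw [hvar, hI2] at hs
  have hlow' : ∑ R : Finset (Edge n r) with
        ((∃ u, 1 ≤ dg R u ∧ dg R u ≤ d) ∧ (VR R).card ≤ v), co p f R ^ 2
      ≤ (rh p ^ (2 * d))⁻¹ *
        (2 * r * sg p ^ 2 * Real.sqrt (1 / (sg p * Real.sqrt a)) * ∑ e, Ex p (De e f)) := by
    rw [← div_eq_inv_mul, le_div_iff₀ hrhd, mul_comm]
    exact hlow
  refine hs.trans ?_
  refine (add_le_add_left hlow' _).trans (le_of_eq ?_)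
  ring

end Vale.Agent.H9.FK
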