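import Vale.Agent.H9.FK.VT4
import Vale.Agent.H9.FK.VT5c

namespace Vale.Agent.H9.FK

open Finset

variable {n r : ℕ}

/-- (T4) influences of the restrictions are small -/
theorem infl_le {p : ℝ} (h0 : 0 < p) (h1 : p < 1) (f : HG n r → ℝ)
    (h01 : ∀ x, f x = 0 ∨ f x = 1) (hs : Symm f) (A : Finset (Fin n)) (hA : A.Nonempty)
    (z : HG n r) (e : Edge n r) (he : e ∈ KA A) :
    Ex p (De e (rst (JA A) f z)) ≤ 1 / (sg p * Real.sqrt A.card) :=
  infl_le_pf h0 h1 f h01 hs A hA z e he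

/-- (T5a) weight on sets with a vertex of small degree and small support -/
theorem low_weight {p : ℝ} (h0 : 0 < p) (h1 : p < 1) (_hr : 2 ≤ r) (f : HG n r → ℝ)
    (h01 : ∀ x, f x = 0 ∨ f x = 1)
    (hm : ∀ x e, f (Function.update x e false) ≤ f (Function.update x e true))
    (hs : Symm f) (a v d : ℕ) (ha : 1 ≤ a) (han : a ≤ n) (hav : 2 * (a - 1) * v ≤ n - 1) :
    rh p ^ (2 * d) * ∑ R : Finset (Edge n r) with
        ((∃ u, 1 ≤ dg R u ∧ dg R u ≤ d) ∧ (VR R).card ≤ v), co p f R ^ 2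
      ≤ 2 * r * sg p ^ 2 * Real.sqrt (1 / (sg p * Real.sqrt a)) * ∑ e, Ex p (De e f) :=
  low_weight_pf h0 h1 f h01 hm hs (fun A hA z e he => infl_le h0 h1 f h01 hs A hA z e he)
    a v d ha han hav

/-- (T5c) main inequality -/
theorem main_ineq {p : ℝ} (h0 : 0 < p) (h1 : p < 1) (hr : 2 ≤ r) (f : HG n r → ℝ)
    (h01 : ∀ x, f x = 0 ∨ f x = 1)
    (hm : ∀ x e, f (Function.update x e false) ≤ f (Function.update x e true))
    (hs : Symm f) (a v d : ℕ) (ha : 1 ≤ a) (han : a ≤ n) (hv : 1 ≤ v)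
    (hav : 2 * (a - 1) * v ≤ n - 1) :
    Ex p f * (1 - Ex p f) ≤ sg p ^ 2 * (∑ e, Ex p (De e f)) *
      (r / ((d : ℝ) + 1) ^ ((r : ℝ) / (r - 1))
        + 2 * r * (rh p ^ (2 * d))⁻¹ * Real.sqrt (1 / (sg p * Real.sqrt a)) + r / v) :=
  main_ineq_of h0 h1 hr f h01 hm a v d hv (low_weight h0 h1 hr f h01 hm hs a v d ha han hav)

end Vale.Agent.H9.FK
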